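import Vale.Agent.Lib.P067.Pseudo

/-!
Bounded-degree coboundary expanders have large top cohomology: a contracting homotopy with
small norms is built from the top dimension downwards, and its existence bounds the number of
vertices in terms of the number of top faces that are independent modulo coboundaries.
-/

namespace Vale.Agent.Lib.P067

open Finset

variable {V : Type} [DecidableEq V]

/-- `X.TopIndep d T`: `T` is a set of `d`-faces of `X` whose indicator cochains are linearly
independent modulo coboundaries: a coboundary `cobdry g` that vanishes on every `d`-face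
outside `T` vanishes on every `d`-face. -/
def Cplx.TopIndep (X : Cplx V) (d : ℕ) (T : Finset (Finset V)) : Prop :=
  T ⊆ X.face d ∧ ∀ g : Finset V → ZMod 2,
    (∀ τ ∈ X.face d, τ ∉ T → cobdry g τ = 0) → ∀ τ ∈ X.face d, cobdry g τ = 0

/-- The linear combination `∑_σ h(σ) u_σ` over the `i`-faces `σ` of `X`. -/
def Cplx.hsum (X : Cplx V) (i : ℕ) (u : Finset V → Finset V → ZMod 2) (h : Finset V → ZMod 2) :
    Finset V → ZMod 2 := fun ρ => ∑ σ ∈ X.face i, h σ * u σ ρ

theorem zmod2_eq_one {a : ZMod 2} (h : a ≠ 0) : a = 1 := by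
  revert a
  decide

theorem zmod2_eq_of_add {a b : ZMod 2} (h : a + b = 0) : b = a := by
  revert a b
  decide

theorem Cplx.wt_nonneg (X : Cplx V) (d i : ℕ) (s : Finset V) : 0 ≤ X.wt d i s := by
  unfold Cplx.wt
  positivity

theorem Cplx.norm_nonneg (X : Cplx V) (d i : ℕ) (f : Finset V → ZMod 2) : 0 ≤ X.norm d i f := by
  unfold Cplx.norm
  exact sum_nonneg (fun s _ => X.wt_nonneg d i s)

theorem Cplx.norm_congr (X : Cplx V) (d i : ℕ) {f g : Finset V → ZMod 2}
    (h : ∀ s ∈ X.face i, f s = g s) : X.norm d i f = X.norm d i g := by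
  unfold Cplx.norm
  congr 1
  apply filter_congr
  intro s hs
  rw [h s hs]

theorem Cplx.norm_eq_zero_of (X : Cplx V) (d i : ℕ) {f : Finset V → ZMod 2}
    (h : ∀ s ∈ X.face i, f s = 0) : X.norm d i f = 0 := by
  unfold Cplx.norm
  rw [filter_eq_empty_iff.2 (fun s hs => by rw [h s hs]; simp), sum_empty]

theorem Cplx.norm_add_le (X : Cplx V) (d i : ℕ) (f g : Finset V → ZMod 2) :
    X.norm d i (f + g) ≤ X.norm d i f + X.norm d i g := by
  unfold Cplx.norm
  have hsub : (X.face i).filter (fun s => (f + g) s ≠ 0) ⊆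
      (X.face i).filter (fun s => f s ≠ 0) ∪ (X.face i).filter (fun s => g s ≠ 0) := by
    intro s hs
    obtain ⟨hsf, hne⟩ := mem_filter.1 hs
    rw [mem_union, mem_filter, mem_filter]
    by_contra hcon
    rw [not_or] at hcon
    apply hne
    have h1 : f s = 0 := by
      by_contra h1
      exact hcon.1 ⟨hsf, h1⟩
    have h2 : g s = 0 := by
      by_contra h2
      exact hcon.2 ⟨hsf, h2⟩
    rw [Pi.add_apply, h1, h2, add_zero]
  calc ∑ s ∈ (X.face i).filter (fun s => (f + g) s ≠ 0), X.wt d i s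
      ≤ ∑ s ∈ (X.face i).filter (fun s => f s ≠ 0) ∪ (X.face i).filter (fun s => g s ≠ 0),
          X.wt d i s :=
        sum_le_sum_of_subset_of_nonneg hsub (fun s _ _ => X.wt_nonneg d i s)
    _ ≤ ∑ s ∈ (X.face i).filter (fun s => f s ≠ 0), X.wt d i s +
          ∑ s ∈ (X.face i).filter (fun s => g s ≠ 0), X.wt d i s := by
        have := sum_union_inter (s₁ := (X.face i).filter (fun s => f s ≠ 0))
          (s₂ := (X.face i).filter (fun s => g s ≠ 0)) (f := fun s => X.wt d i s)
        have hn : 0 ≤ ∑ s ∈ (X.face i).filter (fun s => f s ≠ 0) ∩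
            (X.face i).filter (fun s => g s ≠ 0), X.wt d i s :=
          sum_nonneg (fun s _ => X.wt_nonneg d i s)
        linarith

theorem Cplx.norm_sum_le (X : Cplx V) (d i : ℕ) {ι : Type} (S : Finset ι)
    (F : ι → Finset V → ZMod 2) :
    X.norm d i (fun ρ => ∑ a ∈ S, F a ρ) ≤ ∑ a ∈ S, X.norm d i (F a) := by
  classical
  induction S using Finset.induction_on with
  | empty =>
    simp only [sum_empty]
    exact le_of_eq (X.norm_eq_zero_of d i (fun s _ => rfl))
  | insert a S ha ih =>
    rw [sum_insert ha]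
    have : (fun ρ => ∑ b ∈ insert a S, F b ρ) = F a + fun ρ => ∑ b ∈ S, F b ρ := by
      funext ρ
      rw [sum_insert ha]
      rfl
    rw [this]
    exact (X.norm_add_le d i _ _).trans (by linarith)

theorem Cplx.norm_hsum_le (X : Cplx V) (d e i : ℕ) (u : Finset V → Finset V → ZMod 2)
    (h : Finset V → ZMod 2) :
    X.norm d e (X.hsum i u h) ≤ ∑ σ ∈ (X.face i).filter (fun σ => h σ ≠ 0), X.norm d e (u σ) := by
  unfold Cplx.hsum
  refine (X.norm_sum_le d e (X.face i) (fun σ ρ => h σ * u σ ρ)).trans ?_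
  rw [sum_filter]
  apply sum_le_sum
  intro σ _
  split_ifs with hσ
  · rw [zmod2_eq_one hσ]
    simp
  · rw [not_not] at hσ
    rw [hσ]
    exact le_of_eq (X.norm_eq_zero_of d e (fun s _ => by simp))

theorem cobdry_hsum (X : Cplx V) (i : ℕ) (u : Finset V → Finset V → ZMod 2)
    (h : Finset V → ZMod 2) (τ : Finset V) :
    cobdry (X.hsum i u h) τ = ∑ σ ∈ X.face i, h σ * cobdry (u σ) τ := by
  unfold cobdry Cplx.hsum
  rw [sum_comm]
  apply sum_congr rfl
  intro σ _
  rw [mul_sum]

/-- Summing `h(ρ)` times the coboundary of the indicator of `ρ` over the `e`-faces gives the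
coboundary of `h` on `(e+1)`-faces. -/
theorem Cplx.sum_mul_cobdry_ind (X : Cplx V) {e : ℕ} (h : Finset V → ZMod 2) {σ : Finset V}
    (hσ : σ ∈ X.face (e + 1)) :
    ∑ ρ ∈ X.face e, h ρ * cobdry (ind ρ) σ = cobdry h σ := by
  unfold cobdry
  simp_rw [mul_sum]
  rw [sum_comm]
  apply sum_congr rfl
  intro v hv
  have hmem : σ.erase v ∈ X.face e := X.erase_mem_face hσ hv
  rw [sum_eq_single (σ.erase v)]
  · unfold ind
    rw [if_pos rfl, mul_one]
  · intro ρ _ hne
    unfold ind
    rw [if_neg (fun h => hne h.symm), mul_zero]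
  · intro hn
    exact absurd hmem hn

theorem Cplx.sum_mul_ind (X : Cplx V) {e : ℕ} (h : Finset V → ZMod 2) {τ : Finset V}
    (hτ : τ ∈ X.face e) : ∑ ρ ∈ X.face e, h ρ * ind ρ τ = h τ := by
  rw [sum_eq_single τ]
  · unfold ind
    rw [if_pos rfl, mul_one]
  · intro ρ _ hne
    unfold ind
    rw [if_neg (fun h => hne h.symm), mul_zero]
  · intro hn
    exact absurd hτ hn

end Vale.Agent.Lib.P067
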