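import Vale.Agent.Lib.P067.BettiMain

/-!
The top Betti number over the field with two elements, and the final estimate.
-/

namespace Vale.Agent.Lib.P067

open Finset

variable {V : Type} [DecidableEq V]

/-- The top coboundary map of `X` (of dimension `d`), as a linear map from cochains (functions
on finite sets of vertices; only the values on faces with `d` vertices matter) to the functions
on the set `X(d)` of `d`-faces. -/
def Cplx.topCob (X : Cplx V) (d : ℕ) :
    (Finset V → ZMod 2) →ₗ[ZMod 2] (↥(X.face d) → ZMod 2) where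
  toFun g := fun τ => cobdry g τ.1
  map_add' f g := by
    funext τ
    exact cobdry_add f g τ.1
  map_smul' c g := by
    funext τ
    simp [cobdry, mul_sum]

/-- The top Betti number `dim H^d(X; F_2)`: the dimension of the space of all `F_2`-valued
functions on the `d`-faces modulo the coboundaries of `(d-1)`-cochains. -/
noncomputable def Cplx.topBetti (X : Cplx V) (d : ℕ) : ℕ :=
  Module.finrank (ZMod 2) ((↥(X.face d) → ZMod 2) ⧸ LinearMap.range (X.topCob d))

theorem Cplx.card_le_topBetti (X : Cplx V) {d : ℕ} {T : Finset (Finset V)}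
    (hT : X.TopIndep d T) : T.card ≤ X.topBetti d := by
  classical
  unfold Cplx.topBetti
  set R := LinearMap.range (X.topCob d) with hR
  let v : ↥T → ((↥(X.face d) → ZMod 2) ⧸ R) := fun t =>
    Submodule.Quotient.mk (Pi.single (⟨t.1, hT.1 t.2⟩ : ↥(X.face d)) (1 : ZMod 2))
  have hli : LinearIndependent (ZMod 2) v := by
    rw [Fintype.linearIndependent_iff]
    intro c hc
    have h1 : (∑ t : ↥T, c t • v t) =
        R.mkQ (∑ t : ↥T, c t •
          (Pi.single (⟨t.1, hT.1 t.2⟩ : ↥(X.face d)) (1 : ZMod 2))) := by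
      rw [map_sum]
      apply Finset.sum_congr rfl
      intro t _
      rw [map_smul]
      rfl
    rw [h1, Submodule.mkQ_apply, Submodule.Quotient.mk_eq_zero, hR, LinearMap.mem_range] at hc
    obtain ⟨g, hg⟩ := hc
    have hval : ∀ τ (hτ : τ ∈ X.face d), cobdry g τ =
        ∑ t : ↥T, c t * (if (⟨τ, hτ⟩ : ↥(X.face d)) = ⟨t.1, hT.1 t.2⟩ then 1 else 0) := by
      intro τ hτ
      have := congrFun hg ⟨τ, hτ⟩
      rw [Finset.sum_apply] at this
      simp only [Pi.smul_apply, Pi.single_apply, smul_eq_mul] at this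
      exact this
    have hzero : ∀ τ ∈ X.face d, cobdry g τ = 0 := by
      apply hT.2 g
      intro τ hτ hτT
      rw [hval τ hτ]
      apply Finset.sum_eq_zero
      intro t _
      rw [if_neg, mul_zero]
      intro heq
      apply hτT
      have : τ = t.1 := congrArg Subtype.val heq
      rw [this]
      exact t.2
    intro t0
    have h2 := hval t0.1 (hT.1 t0.2)
    rw [hzero t0.1 (hT.1 t0.2)] at h2
    rw [Finset.sum_eq_single t0] at h2
    · rw [if_pos rfl, mul_one] at h2
      exact h2.symm
    · intro t _ hne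
      rw [if_neg, mul_zero]
      intro heq
      apply hne
      exact Subtype.ext (congrArg Subtype.val heq).symm
    · intro hn
      exact absurd (Finset.mem_univ t0) hn
  have := hli.fintype_card_le_finrank
  rw [Fintype.card_coe] at this
  exact this

/-- **Linear top Betti number.**  In a pure `d`-dimensional complex (`d ≥ 1`) of degree at most
`D` which is an `ε`-coboundary expander, the number of vertices is bounded by an explicit
affine function of the top Betti number `dim H^d(X; F_2)`. -/
theorem Cplx.vertex_card_le_topBetti (X : Cplx V) {d D : ℕ} {ε : ℝ} (hε : 0 < ε) (hd : 1 ≤ d)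
    (hp : X.Pure d) (hD : X.DegLE d D) (hexp : X.IsCobExp d ε) :
    ((X.face 0).card : ℝ) ≤
      1 + ((d : ℝ) + 1) ^ 2 * D *
        ((1 + ((d : ℝ) + 1) * D / ε) ^ (d - 1) * (1 + ((X.topBetti d : ℝ) + 1) / ε)) := by
  obtain ⟨T, hT, hb⟩ := X.vertex_card_le_topIndep hε hd hp hD hexp
  refine hb.trans ?_
  have hTb : (T.card : ℝ) ≤ (X.topBetti d : ℝ) := by exact_mod_cast X.card_le_topBetti hT
  have hK0 : (0 : ℝ) ≤ ((d : ℝ) + 1) ^ 2 * D := by positivity
  have hA0 : (0 : ℝ) ≤ (1 + ((d : ℝ) + 1) * D / ε) ^ (d - 1) := by positivity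
  have h1 : ((T.card : ℝ) + 1) / ε ≤ ((X.topBetti d : ℝ) + 1) / ε :=
    div_le_div_of_nonneg_right (by linarith) hε.le
  have h2 : (1 + ((d : ℝ) + 1) * D / ε) ^ (d - 1) * (1 + ((T.card : ℝ) + 1) / ε) ≤
      (1 + ((d : ℝ) + 1) * D / ε) ^ (d - 1) * (1 + ((X.topBetti d : ℝ) + 1) / ε) :=
    mul_le_mul_of_nonneg_left (by linarith) hA0
  have h3 := mul_le_mul_of_nonneg_left h2 hK0
  linarith

end Vale.Agent.Lib.P067
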