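import Vale.Agent.Lib.P067.BettiWt

/-!
A contracting homotopy with small norms, built from the top dimension downwards.
-/

namespace Vale.Agent.Lib.P067

open Finset

variable {V : Type} [DecidableEq V]

/-- `X.HasHom d e M`: there are cochains `u σ`, one for each face `σ` with `e + 2` vertices,
each of norm at most `M` (as cochains on faces with `e + 1` vertices), such that
`h ↦ ∑_σ h(σ) u_σ` is a right inverse of the coboundary on coboundaries. -/
def Cplx.HasHom (X : Cplx V) (d e : ℕ) (M : ℝ) : Prop :=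
  ∃ u : Finset V → Finset V → ZMod 2,
    (∀ f : Finset V → ZMod 2, ∀ τ ∈ X.face (e + 1),
      cobdry (X.hsum (e + 1) u (cobdry f)) τ = cobdry f τ) ∧
    (∀ σ ∈ X.face (e + 1), X.norm d e (u σ) ≤ M)

theorem Cplx.HasHom.mono {X : Cplx V} {d e : ℕ} {M M' : ℝ} (h : X.HasHom d e M)
    (hM : M ≤ M') : X.HasHom d e M' := by
  obtain ⟨u, hK, hb⟩ := h
  exact ⟨u, hK, fun σ hσ => (hb σ hσ).trans hM⟩

theorem cobdry_zero (t : Finset V) : cobdry (0 : Finset V → ZMod 2) t = 0 := by
  unfold cobdry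
  simp

/-- Top level: a maximal set of top faces independent modulo coboundaries gives a homotopy
with norms at most `(|T| + 1) / (ε |X(d)|)`. -/
theorem Cplx.hasHom_top (X : Cplx V) {e : ℕ} {ε : ℝ} (hε : 0 < ε)
    (hexp : X.IsCobExp (e + 1) ε) {T : Finset (Finset V)} (hT : X.TopIndep (e + 1) T)
    (hmax : ∀ T', X.TopIndep (e + 1) T' → T'.card ≤ T.card) :
    X.HasHom (e + 1) e (((T.card : ℝ) + 1) / (ε * ((X.face (e + 1)).card : ℝ))) := by
  classical
  have key : ∀ τ : Finset V, ∃ w : Finset V → ZMod 2,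
      (τ ∈ T → w = 0) ∧
      (τ ∈ X.face (e + 1) → τ ∉ T →
        cobdry w τ = 1 ∧ (∀ τ' ∈ X.face (e + 1), τ' ∉ T → τ' ≠ τ → cobdry w τ' = 0) ∧
        X.norm (e + 1) e w ≤ ((T.card : ℝ) + 1) / (ε * ((X.face (e + 1)).card : ℝ))) := by
    intro τ
    by_cases hτT : τ ∈ T
    · exact ⟨0, fun _ => rfl, fun _ h => absurd hτT h⟩
    by_cases hτ : τ ∈ X.face (e + 1)
    · have hnot : ¬ X.TopIndep (e + 1) (insert τ T) := by
        intro hind
        have := hmax _ hind
        rw [card_insert_of_notMem hτT] at this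
        omega
      have hsub : insert τ T ⊆ X.face (e + 1) := insert_subset hτ hT.1
      have h2 : ∃ g : Finset V → ZMod 2,
          (∀ τ' ∈ X.face (e + 1), τ' ∉ insert τ T → cobdry g τ' = 0) ∧
          ∃ τ'' ∈ X.face (e + 1), cobdry g τ'' ≠ 0 := by
        by_contra hcon
        apply hnot
        refine ⟨hsub, fun g hg τ'' hτ'' => ?_⟩
        by_contra hne
        exact hcon ⟨g, hg, τ'', hτ'', hne⟩
      obtain ⟨g, hg0, τ'', hτ'', hne⟩ := h2
      have hgτ : cobdry g τ ≠ 0 := by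
        intro h0
        apply hne
        apply hT.2 g _ τ'' hτ''
        intro τ' hτ' hτ'T
        by_cases hττ : τ' = τ
        · rw [hττ]
          exact h0
        · exact hg0 τ' hτ' (by rw [mem_insert, not_or]; exact ⟨hττ, hτ'T⟩)
      obtain ⟨g', hg'⟩ := hexp e (Nat.lt_succ_self e) g
      refine ⟨g - cobdry g', fun h => absurd h hτT, fun _ _ => ⟨?_, ?_, ?_⟩⟩
      · rw [cobdry_sub, cobdry_cobdry, sub_zero]
        exact zmod2_eq_one hgτ
      · intro τ' hτ' hτ'T hne'
        rw [cobdry_sub, cobdry_cobdry, sub_zero]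
        exact hg0 τ' hτ' (by rw [mem_insert, not_or]; exact ⟨hne', hτ'T⟩)
      · have hn : X.norm (e + 1) (e + 1) (cobdry g) ≤
            ((insert τ T).card : ℝ) / ((X.face (e + 1)).card : ℝ) := by
          apply X.norm_top_le_card
          intro τ' hτ' hne'
          by_contra hcon
          exact hne' (hg0 τ' hτ' hcon)
        rw [card_insert_of_notMem hτT] at hn
        push_cast at hn
        have h3 := hg'.trans hn
        rw [mul_comm ε, ← div_div, le_div_iff₀ hε]
        linarith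
    · exact ⟨0, fun _ => rfl, fun h => absurd h hτ⟩
  choose u hu using key
  refine ⟨u, ?_, ?_⟩
  · intro f τ' hτ'
    have hy : ∀ τ₁ ∈ X.face (e + 1), τ₁ ∉ T →
        cobdry (f + X.hsum (e + 1) u (cobdry f)) τ₁ = 0 := by
      intro τ₁ hτ₁ hτ₁T
      rw [cobdry_add, cobdry_hsum, sum_eq_single τ₁]
      · rw [((hu τ₁).2 hτ₁ hτ₁T).1, mul_one]
        exact zmod2_add_self _
      · intro σ hσ hne
        by_cases hσT : σ ∈ T
        · rw [(hu σ).1 hσT, cobdry_zero, mul_zero]
        · rw [((hu σ).2 hσ hσT).2.1 τ₁ hτ₁ hτ₁T (fun h => hne h.symm), mul_zero]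
      · intro hn
        exact absurd hτ₁ hn
    have := hT.2 _ hy τ' hτ'
    rw [cobdry_add] at this
    exact zmod2_eq_of_add this
  · intro σ hσ
    by_cases hσT : σ ∈ T
    · rw [(hu σ).1 hσT]
      have h0 : X.norm (e + 1) e (0 : Finset V → ZMod 2) = 0 :=
        X.norm_eq_zero_of _ _ (fun s _ => rfl)
      rw [h0]
      positivity
    · exact ((hu σ).2 hσ hσT).2.2

/-- The bound on the norm of `∑_σ (δ 1_ρ)(σ) u_σ`. -/
theorem Cplx.norm_hsum_ind_le (X : Cplx V) {d D e : ℕ} {M : ℝ} (hM : 0 ≤ M)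
    (hp : X.Pure d) (hD : X.DegLE d D) (u : Finset V → Finset V → ZMod 2)
    (hb : ∀ σ ∈ X.face (e + 1), X.norm d e (u σ) ≤ M) {ρ : Finset V} (hρ : ρ ∈ X.face e) :
    X.norm d e (X.hsum (e + 1) u (cobdry (ind ρ))) ≤ ((d : ℝ) + 1) * D * M := by
  refine (X.norm_hsum_le d e (e + 1) u _).trans ?_
  calc ∑ σ ∈ (X.face (e + 1)).filter (fun σ => cobdry (ind ρ) σ ≠ 0), X.norm d e (u σ)
      ≤ ∑ σ ∈ (X.face (e + 1)).filter (fun σ => cobdry (ind ρ) σ ≠ 0), M :=
        sum_le_sum (fun σ hσ => hb σ (mem_filter.1 hσ).1)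
    _ = (((X.face (e + 1)).filter (fun σ => cobdry (ind ρ) σ ≠ 0)).card : ℝ) * M := by
        rw [sum_const, nsmul_eq_mul]
    _ ≤ ((d : ℝ) + 1) * D * M := by
        apply mul_le_mul_of_nonneg_right _ hM
        have := (card_le_card (X.cobdry_ind_support hρ)).trans (X.coface_card_le hp hD hρ)
        exact_mod_cast this

/-- One step down: from a homotopy on faces with `e + 3` vertices to one on faces with
`e + 2` vertices. -/
theorem Cplx.hasHom_step (X : Cplx V) {d D e : ℕ} {ε M : ℝ} (hε : 0 < ε) (hM : 0 ≤ M)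
    (hp : X.Pure d) (hD : X.DegLE d D) (hed : e + 2 ≤ d) (hexp : X.IsCobExp d ε)
    (h : X.HasHom d (e + 1) M) :
    X.HasHom d e (((D : ℝ) / ((X.face d).card : ℝ) + ((d : ℝ) + 1) * D * M) / ε) := by
  classical
  obtain ⟨u, hK, hb⟩ := h
  have key : ∀ ρ : Finset V, ∃ w : Finset V → ZMod 2, ρ ∈ X.face (e + 1) →
      (∀ τ ∈ X.face (e + 1),
        cobdry w τ = ind ρ τ + X.hsum (e + 1 + 1) u (cobdry (ind ρ)) τ) ∧
      X.norm d e w ≤ ((D : ℝ) / ((X.face d).card : ℝ) + ((d : ℝ) + 1) * D * M) / ε := by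
    intro ρ
    by_cases hρ : ρ ∈ X.face (e + 1)
    · set z : Finset V → ZMod 2 := ind ρ + X.hsum (e + 1 + 1) u (cobdry (ind ρ)) with hz
      have hz0 : ∀ σ ∈ X.face (e + 1 + 1), cobdry z σ = 0 := by
        intro σ hσ
        rw [hz, cobdry_add, hK (ind ρ) σ hσ]
        exact zmod2_add_self _
      obtain ⟨g, hg⟩ := hexp (e + 1) (by omega) z
      have hn0 : X.norm d (e + 1 + 1) (cobdry z) = 0 := X.norm_eq_zero_of d _ hz0
      have hzg : ∀ s ∈ X.face (e + 1), (z - cobdry g) s = 0 := by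
        apply X.eq_zero_of_norm_le_zero hp (by omega)
        rw [hn0] at hg
        have := X.norm_nonneg d (e + 1) (z - cobdry g)
        nlinarith
      obtain ⟨g', hg'⟩ := hexp e (by omega) g
      refine ⟨g - cobdry g', fun _ => ⟨?_, ?_⟩⟩
      · intro τ hτ
        rw [cobdry_sub, cobdry_cobdry, sub_zero]
        have := hzg τ hτ
        rw [Pi.sub_apply, sub_eq_zero] at this
        rw [← this, hz]
        rfl
      · have h1 : X.norm d (e + 1) (cobdry g) = X.norm d (e + 1) z := by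
          apply X.norm_congr
          intro s hs
          have := hzg s hs
          rw [Pi.sub_apply, sub_eq_zero] at this
          exact this.symm
        have h2 : X.norm d (e + 1) z ≤
            (D : ℝ) / ((X.face d).card : ℝ) + ((d : ℝ) + 1) * D * M := by
          rw [hz]
          refine (X.norm_add_le d (e + 1) _ _).trans ?_
          have ha : X.norm d (e + 1) (ind ρ) ≤ (D : ℝ) / ((X.face d).card : ℝ) := by
            rw [X.norm_ind d hρ]
            exact X.wt_le hD (by omega) hρ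
          have hb' := X.norm_hsum_ind_le hM hp hD u hb hρ
          linarith
        rw [le_div_iff₀ hε]
        rw [h1] at hg'
        linarith
    · exact ⟨0, fun h => absurd h hρ⟩
  choose u' hu' using key
  refine ⟨u', ?_, fun σ hσ => (hu' σ hσ).2⟩
  intro f τ hτ
  rw [cobdry_hsum]
  have h1 : ∑ ρ ∈ X.face (e + 1), cobdry f ρ * cobdry (u' ρ) τ
      = ∑ ρ ∈ X.face (e + 1), (cobdry f ρ * ind ρ τ +
          cobdry f ρ * X.hsum (e + 1 + 1) u (cobdry (ind ρ)) τ) := by
    apply sum_congr rfl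
    intro ρ hρ
    rw [(hu' ρ hρ).1 τ hτ, mul_add]
  rw [h1, sum_add_distrib, X.sum_mul_ind (cobdry f) hτ]
  have h2 : ∑ ρ ∈ X.face (e + 1), cobdry f ρ * X.hsum (e + 1 + 1) u (cobdry (ind ρ)) τ = 0 := by
    unfold Cplx.hsum
    simp_rw [mul_sum]
    rw [sum_comm]
    apply sum_eq_zero
    intro σ hσ
    have : ∑ ρ ∈ X.face (e + 1), cobdry f ρ * (cobdry (ind ρ) σ * u σ τ)
        = (∑ ρ ∈ X.face (e + 1), cobdry f ρ * cobdry (ind ρ) σ) * u σ τ := by
      rw [sum_mul]
      apply sum_congr rfl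
      intro ρ _
      ring
    rw [this, X.sum_mul_cobdry_ind (cobdry f) hσ, cobdry_cobdry, zero_mul]
  rw [h2, add_zero]

end Vale.Agent.Lib.P067
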