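import Vale.Agent.Lib.P067.BettiHom

/-!
The vertex bound obtained from the contracting homotopy, and the final estimate.
-/

namespace Vale.Agent.Lib.P067

open Finset

variable {V : Type} [DecidableEq V]

/-- Bottom level: a homotopy on edges with norms at most `M` bounds the number of vertices. -/
theorem Cplx.vertex_bound_of_hasHom (X : Cplx V) {d D : ℕ} {ε M : ℝ} (hε : 0 < ε) (hM : 0 ≤ M)
    (hp : X.Pure d) (hD : X.DegLE d D) (hd : 1 ≤ d) (hexp : X.IsCobExp d ε)
    (h : X.HasHom d 0 M) :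
    (((X.face 0).card : ℝ) - 1) / (((d : ℝ) + 1) * ((X.face d).card : ℝ)) ≤
      ((d : ℝ) + 1) * D * M := by
  classical
  obtain ⟨u, hK, hb⟩ := h
  have key : ∀ s ∈ X.face 0, ∃ c : ZMod 2, ∀ t ∈ X.face 0,
      ind s t + X.hsum (0 + 1) u (cobdry (ind s)) t = c := by
    intro s hs
    set z : Finset V → ZMod 2 := ind s + X.hsum (0 + 1) u (cobdry (ind s)) with hz
    have hz0 : ∀ σ ∈ X.face (0 + 1), cobdry z σ = 0 := by
      intro σ hσ
      rw [hz, cobdry_add, hK (ind s) σ hσ]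
      exact zmod2_add_self _
    obtain ⟨g, hg⟩ := hexp 0 (by omega) z
    have hn0 : X.norm d (0 + 1) (cobdry z) = 0 := X.norm_eq_zero_of d _ hz0
    have hzg : ∀ t ∈ X.face 0, (z - cobdry g) t = 0 := by
      apply X.eq_zero_of_norm_le_zero hp (by omega)
      rw [hn0] at hg
      have := X.norm_nonneg d 0 (z - cobdry g)
      nlinarith
    refine ⟨g ∅, fun t ht => ?_⟩
    have h1 := hzg t ht
    rw [Pi.sub_apply, sub_eq_zero] at h1
    have hz' : z t = ind s t + X.hsum (0 + 1) u (cobdry (ind s)) t := by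
      rw [hz]
      rfl
    rw [← hz', h1]
    obtain ⟨v, rfl⟩ := card_eq_one.1 (mem_filter.1 ht).2
    unfold cobdry
    simp
  have hnorm : ∀ s ∈ X.face 0,
      X.norm d 0 (X.hsum (0 + 1) u (cobdry (ind s))) ≤ ((d : ℝ) + 1) * D * M :=
    fun s hs => X.norm_hsum_ind_le hM hp hD u hb hs
  by_cases hcase : ∃ s ∈ X.face 0, ∃ c : ZMod 2, c ≠ 0 ∧ ∀ t ∈ X.face 0,
      ind s t + X.hsum (0 + 1) u (cobdry (ind s)) t = c
  · obtain ⟨s, hs, c, hc, hsc⟩ := hcase
    have hc1 := zmod2_eq_one hc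
    have hsupp : (X.face 0).erase s ⊆
        (X.face 0).filter (fun t => X.hsum (0 + 1) u (cobdry (ind s)) t ≠ 0) := by
      intro t ht
      obtain ⟨hts, htf⟩ := mem_erase.1 ht
      refine mem_filter.2 ⟨htf, ?_⟩
      have h1 := hsc t htf
      have hi : ind s t = 0 := by
        unfold ind
        rw [if_neg hts]
      rw [hi, zero_add, hc1] at h1
      rw [h1]
      exact one_ne_zero
    have hlow : (((X.face 0).card : ℝ) - 1) / (((d : ℝ) + 1) * ((X.face d).card : ℝ)) ≤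
        X.norm d 0 (X.hsum (0 + 1) u (cobdry (ind s))) := by
      unfold Cplx.norm
      calc (((X.face 0).card : ℝ) - 1) / (((d : ℝ) + 1) * ((X.face d).card : ℝ))
          = ∑ t ∈ (X.face 0).erase s, 1 / (((d : ℝ) + 1) * ((X.face d).card : ℝ)) := by
            rw [sum_const, card_erase_of_mem hs, nsmul_eq_mul,
              Nat.cast_sub (card_pos.2 ⟨s, hs⟩)]
            push_cast
            ring
        _ ≤ ∑ t ∈ (X.face 0).erase s, X.wt d 0 t :=
            sum_le_sum (fun t ht => X.wt_vertex_ge hp (mem_of_mem_erase ht))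
        _ ≤ ∑ t ∈ (X.face 0).filter (fun t => X.hsum (0 + 1) u (cobdry (ind s)) t ≠ 0),
              X.wt d 0 t :=
            sum_le_sum_of_subset_of_nonneg hsupp (fun t _ _ => X.wt_nonneg d 0 t)
    exact hlow.trans (hnorm s hs)
  · have hall : ∀ s ∈ X.face 0, ∀ t ∈ X.face 0,
        X.hsum (0 + 1) u (cobdry (ind s)) t = ind s t := by
      intro s hs t ht
      obtain ⟨c, hc⟩ := key s hs
      have hc0 : c = 0 := by
        by_contra hne
        exact hcase ⟨s, hs, c, hne, hc⟩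
      have h1 := hc t ht
      rw [hc0] at h1
      exact zmod2_eq_of_add h1
    rcases (X.face 0).eq_empty_or_nonempty with hemp | ⟨t0, ht0⟩
    · rw [hemp, card_empty]
      have h1 : ((0 : ℕ) : ℝ) - 1 ≤ 0 := by norm_num
      have h2 : (0 : ℝ) ≤ ((d : ℝ) + 1) * ((X.face d).card : ℝ) := by positivity
      have h3 : (0 : ℝ) ≤ ((d : ℝ) + 1) * D * M := by positivity
      exact (div_nonpos_of_nonpos_of_nonneg h1 h2).trans h3
    · exfalso
      have hsum1 : ∑ s ∈ X.face 0, X.hsum (0 + 1) u (cobdry (ind s)) t0 = 1 := by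
        rw [sum_congr rfl (fun s hs => hall s hs t0 ht0)]
        have h1 := X.sum_mul_ind (fun _ => (1 : ZMod 2)) ht0
        simp only [one_mul] at h1
        exact h1
      have hsum0 : ∑ s ∈ X.face 0, X.hsum (0 + 1) u (cobdry (ind s)) t0 = 0 := by
        unfold Cplx.hsum
        rw [sum_comm]
        apply sum_eq_zero
        intro σ hσ
        rw [← sum_mul]
        have h1 := X.sum_mul_cobdry_ind (fun _ => (1 : ZMod 2)) hσ
        simp only [one_mul] at h1
        have h2 : cobdry (fun _ => (1 : ZMod 2)) σ = 0 := by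
          unfold cobdry
          rw [sum_const, (mem_filter.1 hσ).2]
          decide
        rw [h1, h2, zero_mul]
      rw [hsum0] at hsum1
      exact zero_ne_one hsum1

theorem Cplx.topIndep_empty (X : Cplx V) (d : ℕ) : X.TopIndep d ∅ :=
  ⟨empty_subset _, fun _ hg τ hτ => hg τ hτ (notMem_empty τ)⟩

theorem Cplx.exists_max_topIndep (X : Cplx V) (d : ℕ) :
    ∃ T, X.TopIndep d T ∧ ∀ T', X.TopIndep d T' → T'.card ≤ T.card := by
  classical
  obtain ⟨T, hT, hmax⟩ := Finset.exists_max_image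
    ((X.face d).powerset.filter (fun T => X.TopIndep d T)) card
    ⟨∅, mem_filter.2 ⟨mem_powerset.2 (empty_subset _), X.topIndep_empty d⟩⟩
  exact ⟨T, (mem_filter.1 hT).2,
    fun T' hT' => hmax T' (mem_filter.2 ⟨mem_powerset.2 hT'.1, hT'⟩)⟩

/-- All levels: downward induction from the top dimension. -/
theorem Cplx.hasHom_all (X : Cplx V) {d D : ℕ} {ε : ℝ} (hε : 0 < ε) (hp : X.Pure d)
    (hD : X.DegLE d D) (hexp : X.IsCobExp d ε) (hF : 0 < (X.face d).card)
    {T : Finset (Finset V)} (hT : X.TopIndep d T)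
    (hmax : ∀ T', X.TopIndep d T' → T'.card ≤ T.card) :
    ∀ j e : ℕ, e + 1 + j = d →
      X.HasHom d e (((1 + ((d : ℝ) + 1) * D / ε) ^ j * (1 + ((T.card : ℝ) + 1) / ε) - 1) /
        ((X.face d).card : ℝ)) := by
  have hFr : (0 : ℝ) < ((X.face d).card : ℝ) := by exact_mod_cast hF
  have hA0 : (0 : ℝ) ≤ ((d : ℝ) + 1) * D / ε := by positivity
  have hm0 : (0 : ℝ) ≤ ((T.card : ℝ) + 1) / ε := by positivity
  intro j
  induction j with
  | zero =>
    intro e he
    have hd : d = e + 1 := by omega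
    subst hd
    refine (X.hasHom_top hε hexp hT hmax).mono (le_of_eq ?_)
    rw [pow_zero, one_mul, add_sub_cancel_left, div_div]
  | succ j ih =>
    intro e he
    have h1 := ih (e + 1) (by omega)
    have hP : (1 : ℝ) ≤ (1 + ((d : ℝ) + 1) * D / ε) ^ j * (1 + ((T.card : ℝ) + 1) / ε) := by
      have ha : (1 : ℝ) ≤ (1 + ((d : ℝ) + 1) * D / ε) ^ j := one_le_pow₀ (by linarith)
      have hb : (1 : ℝ) ≤ 1 + ((T.card : ℝ) + 1) / ε := by linarith
      calc (1 : ℝ) = 1 * 1 := by ring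
        _ ≤ _ := mul_le_mul ha hb (by norm_num) (by linarith)
    have hM : (0 : ℝ) ≤ ((1 + ((d : ℝ) + 1) * D / ε) ^ j * (1 + ((T.card : ℝ) + 1) / ε) - 1) /
        ((X.face d).card : ℝ) := div_nonneg (by linarith) hFr.le
    refine (X.hasHom_step hε hM hp hD (by omega) hexp h1).mono ?_
    set P : ℝ := (1 + ((d : ℝ) + 1) * D / ε) ^ j * (1 + ((T.card : ℝ) + 1) / ε) with hPdef
    have hkey : ((D : ℝ) / ((X.face d).card : ℝ) +
        ((d : ℝ) + 1) * D * ((P - 1) / ((X.face d).card : ℝ))) / ε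
        = ((D : ℝ) / ε + ((d : ℝ) + 1) * D / ε * (P - 1)) / ((X.face d).card : ℝ) := by
      field_simp
    rw [hkey, pow_succ]
    apply div_le_div_of_nonneg_right _ hFr.le
    have hDA : (D : ℝ) / ε ≤ ((d : ℝ) + 1) * D / ε := by
      apply div_le_div_of_nonneg_right _ hε.le
      have hD0 : (0 : ℝ) ≤ (D : ℝ) := by positivity
      have hd0 : (0 : ℝ) ≤ (d : ℝ) := by positivity
      nlinarith
    have hexpand : (1 + ((d : ℝ) + 1) * D / ε) ^ j * (1 + ((d : ℝ) + 1) * D / ε) *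
        (1 + ((T.card : ℝ) + 1) / ε) = P + ((d : ℝ) + 1) * D / ε * P := by
      rw [hPdef]
      ring
    rw [hexpand]
    nlinarith

/-- Vertex bound in terms of a maximal independent set of top faces. -/
theorem Cplx.vertex_card_le_topIndep (X : Cplx V) {d D : ℕ} {ε : ℝ} (hε : 0 < ε) (hd : 1 ≤ d)
    (hp : X.Pure d) (hD : X.DegLE d D) (hexp : X.IsCobExp d ε) :
    ∃ T, X.TopIndep d T ∧ ((X.face 0).card : ℝ) ≤
      1 + ((d : ℝ) + 1) ^ 2 * D *
        ((1 + ((d : ℝ) + 1) * D / ε) ^ (d - 1) * (1 + ((T.card : ℝ) + 1) / ε)) := by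
  obtain ⟨T, hT, hmax⟩ := X.exists_max_topIndep d
  refine ⟨T, hT, ?_⟩
  have hA0 : (0 : ℝ) ≤ ((d : ℝ) + 1) * D / ε := by positivity
  have hm0 : (0 : ℝ) ≤ ((T.card : ℝ) + 1) / ε := by positivity
  have hP : (1 : ℝ) ≤ (1 + ((d : ℝ) + 1) * D / ε) ^ (d - 1) * (1 + ((T.card : ℝ) + 1) / ε) := by
    have ha : (1 : ℝ) ≤ (1 + ((d : ℝ) + 1) * D / ε) ^ (d - 1) := one_le_pow₀ (by linarith)
    have hb : (1 : ℝ) ≤ 1 + ((T.card : ℝ) + 1) / ε := by linarith
    calc (1 : ℝ) = 1 * 1 := by ring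
      _ ≤ _ := mul_le_mul ha hb (by norm_num) (by linarith)
  have hK0 : (0 : ℝ) ≤ ((d : ℝ) + 1) ^ 2 * D := by positivity
  rcases Nat.eq_zero_or_pos (X.face d).card with h0 | hF
  · have hemp : X.face 0 = ∅ := by
      by_contra hne
      obtain ⟨s, hs⟩ := nonempty_iff_ne_empty.2 hne
      have := X.face_card_pos hp (mem_filter.1 hs).1
      omega
    rw [hemp, card_empty]
    have : (0 : ℝ) ≤ ((d : ℝ) + 1) ^ 2 * D *
        ((1 + ((d : ℝ) + 1) * D / ε) ^ (d - 1) * (1 + ((T.card : ℝ) + 1) / ε)) :=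
      mul_nonneg hK0 (by linarith)
    push_cast
    linarith
  · have hFr : (0 : ℝ) < ((X.face d).card : ℝ) := by exact_mod_cast hF
    have hhom := X.hasHom_all hε hp hD hexp hF hT hmax (d - 1) 0 (by omega)
    set P : ℝ := (1 + ((d : ℝ) + 1) * D / ε) ^ (d - 1) * (1 + ((T.card : ℝ) + 1) / ε) with hPdef
    have hM : (0 : ℝ) ≤ (P - 1) / ((X.face d).card : ℝ) := div_nonneg (by linarith) hFr.le
    have hb := X.vertex_bound_of_hasHom hε hM hp hD hd hexp hhom
    have hd0 : (0 : ℝ) < (d : ℝ) + 1 := by positivity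
    rw [div_le_iff₀ (by positivity)] at hb
    have hsimp : ((d : ℝ) + 1) * D * ((P - 1) / ((X.face d).card : ℝ)) *
        (((d : ℝ) + 1) * ((X.face d).card : ℝ)) = ((d : ℝ) + 1) ^ 2 * D * (P - 1) := by
      field_simp
    rw [hsimp] at hb
    nlinarith

end Vale.Agent.Lib.P067
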