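import Vale.Agent.Lib.P067.Betti

/-!
Weight estimates in a pure complex of bounded degree.
-/

namespace Vale.Agent.Lib.P067

open Finset

variable {V : Type} [DecidableEq V]

theorem Cplx.updeg_pos (X : Cplx V) {d : ℕ} (hp : X.Pure d) {s : Finset V} (hs : s ∈ X.faces) :
    0 < X.updeg d s := by
  obtain ⟨t, ht, hst⟩ := hp s hs
  unfold Cplx.updeg
  exact card_pos.2 ⟨t, mem_filter.2 ⟨ht, hst⟩⟩

theorem Cplx.face_card_pos (X : Cplx V) {d : ℕ} (hp : X.Pure d) {s : Finset V}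
    (hs : s ∈ X.faces) : 0 < (X.face d).card := by
  obtain ⟨t, ht, _⟩ := hp s hs
  exact card_pos.2 ⟨t, ht⟩

theorem Cplx.wt_pos (X : Cplx V) {d i : ℕ} (hp : X.Pure d) (hid : i ≤ d) {s : Finset V}
    (hs : s ∈ X.face i) : 0 < X.wt d i s := by
  have hsf : s ∈ X.faces := (mem_filter.1 hs).1
  unfold Cplx.wt
  have h1 : (0 : ℝ) < (X.updeg d s : ℝ) := by exact_mod_cast X.updeg_pos hp hsf
  have h2 : (0 : ℝ) < ((X.face d).card : ℝ) := by exact_mod_cast X.face_card_pos hp hsf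
  have h3 : (0 : ℝ) < (((d + 1).choose (i + 1) : ℕ) : ℝ) := by
    exact_mod_cast Nat.choose_pos (by omega)
  positivity

theorem Cplx.eq_zero_of_norm_le_zero (X : Cplx V) {d i : ℕ} (hp : X.Pure d) (hid : i ≤ d)
    {f : Finset V → ZMod 2} (h : X.norm d i f ≤ 0) : ∀ s ∈ X.face i, f s = 0 := by
  intro s hs
  by_contra hne
  have hmem : s ∈ (X.face i).filter (fun s => f s ≠ 0) := mem_filter.2 ⟨hs, hne⟩
  have : X.wt d i s ≤ X.norm d i f := by
    unfold Cplx.norm
    exact single_le_sum (f := fun s => X.wt d i s) (fun t _ => X.wt_nonneg d i t) hmem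
  have hpos := X.wt_pos hp hid hs
  linarith

theorem Cplx.updeg_le_of_mem (X : Cplx V) {d D : ℕ} (hD : X.DegLE d D) {s : Finset V} {v : V}
    (hv : v ∈ s) : X.updeg d s ≤ D := by
  refine le_trans ?_ (hD v)
  unfold Cplx.updeg
  apply card_le_card
  intro t ht
  obtain ⟨htf, hst⟩ := mem_filter.1 ht
  exact mem_filter.2 ⟨htf, singleton_subset_iff.2 (hst hv)⟩

theorem Cplx.wt_le (X : Cplx V) {d D i : ℕ} (hD : X.DegLE d D) (hid : i ≤ d) {s : Finset V}
    (hs : s ∈ X.face i) : X.wt d i s ≤ (D : ℝ) / ((X.face d).card : ℝ) := by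
  have hsc : s.card = i + 1 := (mem_filter.1 hs).2
  obtain ⟨v, hv⟩ : s.Nonempty := card_pos.1 (by omega)
  have h1 : (X.updeg d s : ℝ) ≤ (D : ℝ) := by exact_mod_cast X.updeg_le_of_mem hD hv
  have h3 : (1 : ℝ) ≤ (((d + 1).choose (i + 1) : ℕ) : ℝ) := by
    exact_mod_cast Nat.choose_pos (by omega)
  unfold Cplx.wt
  rcases Nat.eq_zero_or_pos (X.face d).card with h0 | hpos
  · rw [h0]
    simp
  · have hF : (0 : ℝ) < ((X.face d).card : ℝ) := by exact_mod_cast hpos
    rw [div_le_div_iff₀ (by positivity) hF]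
    have hD0 : (0 : ℝ) ≤ (D : ℝ) := by positivity
    have hA : (X.updeg d s : ℝ) * ((X.face d).card : ℝ) ≤ (D : ℝ) * ((X.face d).card : ℝ) :=
      mul_le_mul_of_nonneg_right h1 hF.le
    have hB : ((X.face d).card : ℝ) ≤
        (((d + 1).choose (i + 1) : ℕ) : ℝ) * ((X.face d).card : ℝ) :=
      le_mul_of_one_le_left hF.le h3
    have hC : (D : ℝ) * ((X.face d).card : ℝ) ≤
        (D : ℝ) * ((((d + 1).choose (i + 1) : ℕ) : ℝ) * ((X.face d).card : ℝ)) :=
      mul_le_mul_of_nonneg_left hB hD0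
    exact hA.trans hC

theorem Cplx.norm_ind (X : Cplx V) (d : ℕ) {i : ℕ} {s : Finset V} (hs : s ∈ X.face i) :
    X.norm d i (ind s) = X.wt d i s := by
  unfold Cplx.norm
  have : (X.face i).filter (fun t => ind s t ≠ 0) = {s} := by
    ext t
    rw [mem_filter, mem_singleton]
    unfold ind
    constructor
    · rintro ⟨_, hne⟩
      by_contra hts
      rw [if_neg hts] at hne
      exact hne rfl
    · rintro rfl
      exact ⟨hs, by rw [if_pos rfl]; exact one_ne_zero⟩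
  rw [this, sum_singleton]

/-- The weight of a vertex is at least `1 / ((d+1) |X(d)|)`. -/
theorem Cplx.wt_vertex_ge (X : Cplx V) {d : ℕ} (hp : X.Pure d) {s : Finset V}
    (hs : s ∈ X.face 0) :
    1 / (((d : ℝ) + 1) * ((X.face d).card : ℝ)) ≤ X.wt d 0 s := by
  have hsf : s ∈ X.faces := (mem_filter.1 hs).1
  have h1 : (1 : ℝ) ≤ (X.updeg d s : ℝ) := by exact_mod_cast X.updeg_pos hp hsf
  have h2 : (0 : ℝ) < ((X.face d).card : ℝ) := by exact_mod_cast X.face_card_pos hp hsf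
  unfold Cplx.wt
  rw [Nat.choose_one_right]
  push_cast
  apply div_le_div_of_nonneg_right h1
  positivity

/-- A face with `e + 1` vertices lies in at most `(d+1) D` faces with `e + 2` vertices. -/
theorem Cplx.coface_card_le (X : Cplx V) {d D e : ℕ} (hp : X.Pure d) (hD : X.DegLE d D)
    {ρ : Finset V} (hρ : ρ ∈ X.face e) :
    ((X.face (e + 1)).filter (fun σ => ρ ⊆ σ)).card ≤ (d + 1) * D := by
  have hρc : ρ.card = e + 1 := (mem_filter.1 hρ).2
  obtain ⟨v0, hv0⟩ : ρ.Nonempty := card_pos.1 (by omega)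
  set U : Finset V := ((X.face d).filter (fun t => ρ ⊆ t)).biUnion id with hU
  have hsub : (X.face (e + 1)).filter (fun σ => ρ ⊆ σ) ⊆ U.image (fun x => insert x ρ) := by
    intro σ hσ
    obtain ⟨hσf, hρσ⟩ := mem_filter.1 hσ
    obtain ⟨hσfaces, hσc⟩ := mem_filter.1 hσf
    obtain ⟨t, ht, hσt⟩ := hp σ hσfaces
    obtain ⟨v, hv, hve⟩ := exists_erase_eq hρσ (by rw [hσc, hρc])
    refine mem_image.2 ⟨v, ?_, ?_⟩
    · rw [hU, mem_biUnion]
      exact ⟨t, mem_filter.2 ⟨ht, hρσ.trans hσt⟩, hσt hv⟩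
    · rw [← hve, insert_erase hv]
  calc ((X.face (e + 1)).filter (fun σ => ρ ⊆ σ)).card
      ≤ (U.image (fun x => insert x ρ)).card := card_le_card hsub
    _ ≤ U.card := card_image_le
    _ ≤ ∑ t ∈ (X.face d).filter (fun t => ρ ⊆ t), t.card := card_biUnion_le
    _ = ∑ t ∈ (X.face d).filter (fun t => ρ ⊆ t), (d + 1) :=
        sum_congr rfl (fun t ht => (mem_filter.1 (mem_filter.1 ht).1).2)
    _ = (X.updeg d ρ) * (d + 1) := by
        rw [sum_const, smul_eq_mul]
        rfl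
    _ ≤ (d + 1) * D := by
        rw [mul_comm]
        exact Nat.mul_le_mul_left _ (X.updeg_le_of_mem hD hv0)

/-- Support of the coboundary of an indicator: only cofaces. -/
theorem Cplx.cobdry_ind_support (X : Cplx V) {e : ℕ} {ρ : Finset V} (hρ : ρ ∈ X.face e) :
    (X.face (e + 1)).filter (fun σ => cobdry (ind ρ) σ ≠ 0) ⊆
      (X.face (e + 1)).filter (fun σ => ρ ⊆ σ) := by
  intro σ hσ
  obtain ⟨hσf, hne⟩ := mem_filter.1 hσ
  refine mem_filter.2 ⟨hσf, ?_⟩
  have hc : σ.card = ρ.card + 1 := by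
    rw [(mem_filter.1 hσf).2, (mem_filter.1 hρ).2]
  rw [cobdry_ind ρ σ hc] at hne
  by_contra hcon
  rw [if_neg hcon] at hne
  exact hne rfl

/-- Norm of the top-dimensional cochains: number of faces in the support over `|X(d)|`. -/
theorem Cplx.norm_top_le_card (X : Cplx V) {d : ℕ} (φ : Finset V → ZMod 2)
    (S : Finset (Finset V)) (hS : ∀ τ ∈ X.face d, φ τ ≠ 0 → τ ∈ S) :
    X.norm d d φ ≤ (S.card : ℝ) / ((X.face d).card : ℝ) := by
  unfold Cplx.norm
  have hsub : (X.face d).filter (fun s => φ s ≠ 0) ⊆ S := by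
    intro τ hτ
    exact hS τ (mem_filter.1 hτ).1 (mem_filter.1 hτ).2
  calc ∑ s ∈ (X.face d).filter (fun s => φ s ≠ 0), X.wt d d s
      = ∑ s ∈ (X.face d).filter (fun s => φ s ≠ 0), 1 / ((X.face d).card : ℝ) :=
        sum_congr rfl (fun s hs => X.wt_top (mem_filter.1 hs).1)
    _ = (((X.face d).filter (fun s => φ s ≠ 0)).card : ℝ) * (1 / ((X.face d).card : ℝ)) := by
        rw [sum_const, nsmul_eq_mul]
    _ ≤ (S.card : ℝ) * (1 / ((X.face d).card : ℝ)) := by
        apply mul_le_mul_of_nonneg_right _ (by positivity)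
        exact_mod_cast card_le_card hsub
    _ = (S.card : ℝ) / ((X.face d).card : ℝ) := by ring

end Vale.Agent.Lib.P067
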