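import Mathlib

/-!
Basic definitions for problem P067 (coboundary expanders over the field with two elements).

A cochain is represented by a total function `Finset V → ZMod 2`; only its values on the
faces of the relevant dimension matter for the norms below.
-/

namespace Vale.Agent.Lib.P067

open Finset

/-- A finite abstract simplicial complex on a vertex type `V`: a finite set of nonempty finite
sets of vertices (the faces), closed under passing to nonempty subsets. -/
structure Cplx (V : Type) [DecidableEq V] where
  faces : Finset (Finset V)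
  nonempty_of_mem : ∀ s ∈ faces, s.Nonempty
  down_closed : ∀ s ∈ faces, ∀ t : Finset V, t ⊆ s → t.Nonempty → t ∈ faces

variable {V : Type} [DecidableEq V]

/-- `X.face i` is `X(i)`: the set of faces with `i + 1` vertices. -/
def Cplx.face (X : Cplx V) (i : ℕ) : Finset (Finset V) :=
  X.faces.filter (fun s => s.card = i + 1)

/-- `X` is pure `d`-dimensional: every face lies in a face with `d + 1` vertices. -/
def Cplx.Pure (X : Cplx V) (d : ℕ) : Prop :=
  ∀ s ∈ X.faces, ∃ t ∈ X.face d, s ⊆ t

/-- `X.updeg d s` is the number of `d`-faces of `X` containing the vertex set `s`. -/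
def Cplx.updeg (X : Cplx V) (d : ℕ) (s : Finset V) : ℕ :=
  ((X.face d).filter (fun t => s ⊆ t)).card

/-- The weight `w_i(s)` of an `i`-face `s` in a `d`-dimensional complex:
the number of `d`-faces containing `s`, divided by `binom(d+1, i+1) * |X(d)|`. -/
noncomputable def Cplx.wt (X : Cplx V) (d i : ℕ) (s : Finset V) : ℝ :=
  (X.updeg d s : ℝ) / (((d + 1).choose (i + 1) : ℝ) * ((X.face d).card : ℝ))

/-- The norm `‖f‖_i` of an `i`-cochain: the total weight of the `i`-faces on which `f` is
nonzero. -/
noncomputable def Cplx.norm (X : Cplx V) (d i : ℕ) (f : Finset V → ZMod 2) : ℝ :=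
  ∑ s ∈ (X.face i).filter (fun s => f s ≠ 0), X.wt d i s

/-- The coboundary: `(cobdry f) t` is the sum of `f` over the sets obtained from `t` by deleting
one vertex.  For a face `t` with `i + 2` vertices these are exactly its `i`-dimensional faces.
For a vertex `t = {v}` the value is `f ∅`, so coboundaries of functions on the empty set are
exactly the constant `0`-cochains. -/
def cobdry (f : Finset V → ZMod 2) (t : Finset V) : ZMod 2 :=
  ∑ v ∈ t, f (t.erase v)

/-- `X` (of dimension `d`) is an `ε`-coboundary expander: for every `i < d` and every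
`i`-cochain `f` there is an element `cobdry g` of `B^i` (for `i = 0` this is a constant) with
`ε * ‖f - cobdry g‖_i ≤ ‖cobdry f‖_{i+1}`.  As `B^i` is finite, this says
`‖δ_i f‖_{i+1} ≥ ε * dist_i(f, B^i)`. -/
def Cplx.IsCobExp (X : Cplx V) (d : ℕ) (ε : ℝ) : Prop :=
  ∀ i : ℕ, i < d → ∀ f : Finset V → ZMod 2, ∃ g : Finset V → ZMod 2,
    ε * X.norm d i (f - cobdry g) ≤ X.norm d (i + 1) (cobdry f)

/-- Every vertex lies in at most `D` faces of dimension `d`. -/
def Cplx.DegLE (X : Cplx V) (d D : ℕ) : Prop :=
  ∀ v : V, X.updeg d {v} ≤ D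

/-- `X` is connected: any two vertices of `X` are joined by a path of edges of `X`. -/
def Cplx.Conn (X : Cplx V) : Prop :=
  ∀ u v : V, {u} ∈ X.faces → {v} ∈ X.faces →
    Relation.ReflTransGen (fun a b : V => ({a, b} : Finset V) ∈ X.faces) u v

/-- The positive statement of Q1 in dimension `d`: there are `D` and `ε > 0` and finite
connected pure `d`-dimensional complexes with arbitrarily many vertices, each of degree at most
`D` and each an `ε`-coboundary expander. -/
def BddDegCobExpFamily (d : ℕ) : Prop :=
  ∃ (D : ℕ) (ε : ℝ), 0 < ε ∧ ∀ n : ℕ, ∃ (m : ℕ) (X : Cplx (Fin m)),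
    n ≤ (X.face 0).card ∧ X.Pure d ∧ X.Conn ∧ X.DegLE d D ∧ X.IsCobExp d ε

end Vale.Agent.Lib.P067
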