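import Vale.Agent.Lib.P067.StrongConn

/-!
Closed strongly connected pseudomanifolds are not coboundary expanders once they are large:
the expansion in the top dimension fails.
-/

namespace Vale.Agent.Lib.P067

open Finset

variable {V : Type} [DecidableEq V]

/-- The indicator cochain of a set of vertices. -/
def ind (s : Finset V) : Finset V → ZMod 2 := fun t => if t = s then 1 else 0

theorem cobdry_add (f g : Finset V → ZMod 2) (t : Finset V) :
    cobdry (f + g) t = cobdry f t + cobdry g t := by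
  unfold cobdry
  simp [sum_add_distrib]

theorem cobdry_sub (f g : Finset V → ZMod 2) (t : Finset V) :
    cobdry (f - g) t = cobdry f t - cobdry g t := by
  unfold cobdry
  simp [sum_sub_distrib]

theorem zmod2_add_self (a : ZMod 2) : a + a = 0 := by
  revert a
  decide

theorem cobdry_cobdry (g : Finset V → ZMod 2) (t : Finset V) : cobdry (cobdry g) t = 0 := by
  unfold cobdry
  rw [sum_sigma']
  refine sum_involution (fun p _ => ⟨p.2, p.1⟩) ?_ ?_ ?_ ?_
  · intro p _
    rw [erase_right_comm]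
    exact zmod2_add_self _
  · intro p hp _ heq
    have h2 : p.2 ∈ t.erase p.1 := (mem_sigma.1 hp).2
    have : p.2 = p.1 := congrArg Sigma.fst heq
    exact (ne_of_mem_erase h2) this
  · intro p hp
    have h1 : p.1 ∈ t := (mem_sigma.1 hp).1
    have h2 : p.2 ∈ t.erase p.1 := (mem_sigma.1 hp).2
    exact mem_sigma.2 ⟨mem_of_mem_erase h2, mem_erase.2 ⟨(ne_of_mem_erase h2).symm, h1⟩⟩
  · intro p _
    rfl

/-- If `s ⊆ t` and `t` has one more element than `s`, then `s = t.erase v` for a `v ∈ t`. -/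
theorem exists_erase_eq {s t : Finset V} (hst : s ⊆ t) (hc : t.card = s.card + 1) :
    ∃ v ∈ t, t.erase v = s := by
  have h1 : (t \ s).card = 1 := by
    rw [card_sdiff_of_subset hst]
    omega
  obtain ⟨v, hv⟩ := card_eq_one.1 h1
  have hvt : v ∈ t \ s := by
    rw [hv]
    exact mem_singleton_self v
  refine ⟨v, (mem_sdiff.1 hvt).1, ?_⟩
  ext w
  rw [mem_erase]
  constructor
  · rintro ⟨hne, hw⟩
    by_contra hws
    have : w ∈ t \ s := mem_sdiff.2 ⟨hw, hws⟩
    rw [hv, mem_singleton] at this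
    exact hne this
  · intro hw
    refine ⟨?_, hst hw⟩
    rintro rfl
    exact (mem_sdiff.1 hvt).2 hw

theorem cobdry_ind (s t : Finset V) (hc : t.card = s.card + 1) :
    cobdry (ind s) t = if s ⊆ t then 1 else 0 := by
  unfold cobdry ind
  split_ifs with hst
  · obtain ⟨v, hv, hvs⟩ := exists_erase_eq hst hc
    rw [sum_eq_single v]
    · rw [if_pos hvs]
    · intro w hw hne
      rw [if_neg]
      intro hws
      apply hne
      by_contra hne'
      have : v ∈ t.erase w := mem_erase.2 ⟨fun h => hne h.symm, hv⟩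
      rw [hws, ← hvs] at this
      exact (notMem_erase v t) this
    · intro hv'
      exact absurd hv hv'
  · apply sum_eq_zero
    intro w _
    rw [if_neg]
    intro hws
    apply hst
    rw [← hws]
    exact erase_subset w t


/-- `X.nbrs d S`: the `d`-faces containing a set `a.erase v` with `a ∈ S` and `v ∈ a`. -/
def Cplx.nbrs (X : Cplx V) (d : ℕ) (S : Finset (Finset V)) : Finset (Finset V) :=
  (X.face d).filter (fun b => ∃ a ∈ S, ∃ v ∈ a, a.erase v ⊆ b)

theorem Cplx.mem_nbrs (X : Cplx V) (d : ℕ) (S : Finset (Finset V)) (b : Finset V) :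
    b ∈ X.nbrs d S ↔ b ∈ X.face d ∧ ∃ a ∈ S, ∃ v ∈ a, a.erase v ⊆ b := by
  unfold Cplx.nbrs
  rw [mem_filter]

/-- `X.ball d t0 r`: the `d`-faces reachable from `t0` in at most `r` steps, a step going from
a `d`-face `a` to a `d`-face containing one of the sets `a.erase v`. -/
def Cplx.ball (X : Cplx V) (d : ℕ) (t0 : Finset V) : ℕ → Finset (Finset V)
  | 0 => {t0}
  | r + 1 => X.ball d t0 r ∪ X.nbrs d (X.ball d t0 r)

theorem Cplx.ball_subset_face (X : Cplx V) {d : ℕ} {t0 : Finset V} (h0 : t0 ∈ X.face d)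
    (r : ℕ) : X.ball d t0 r ⊆ X.face d := by
  induction r with
  | zero =>
    intro t ht
    rw [Cplx.ball, mem_singleton] at ht
    rw [ht]
    exact h0
  | succ r ih =>
    intro t ht
    rw [Cplx.ball, mem_union] at ht
    rcases ht with ht | ht
    · exact ih ht
    · exact ((X.mem_nbrs _ _ _).1 ht).1

theorem Cplx.ball_succ_subset (X : Cplx V) (d : ℕ) (t0 : Finset V) (r : ℕ) :
    X.ball d t0 r ⊆ X.ball d t0 (r + 1) := by
  intro t ht
  rw [Cplx.ball, mem_union]
  exact Or.inl ht

theorem Cplx.ball_mono (X : Cplx V) (d : ℕ) (t0 : Finset V) {r r' : ℕ} (h : r ≤ r') :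
    X.ball d t0 r ⊆ X.ball d t0 r' := by
  induction h with
  | refl => exact Subset.refl _
  | step _ ih => exact ih.trans (X.ball_succ_subset d t0 _)

theorem Cplx.erase_mem_face (X : Cplx V) {e : ℕ} {a : Finset V} (ha : a ∈ X.face (e + 1))
    {v : V} (hv : v ∈ a) : a.erase v ∈ X.face e := by
  have hac : a.card = e + 1 + 1 := (mem_filter.1 ha).2
  have hc : (a.erase v).card = e + 1 := by
    rw [card_erase_of_mem hv, hac]
    rfl
  refine mem_filter.2 ⟨X.down_closed a (mem_filter.1 ha).1 _ (erase_subset v a) ?_, hc⟩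
  exact card_pos.1 (by omega)

theorem Cplx.ball_card_le (X : Cplx V) {e : ℕ} (h2 : ∀ s ∈ X.face e, X.updeg (e + 1) s = 2)
    {t0 : Finset V} (h0 : t0 ∈ X.face (e + 1)) (r : ℕ) :
    (X.ball (e + 1) t0 r).card ≤ (2 * e + 5) ^ r := by
  induction r with
  | zero => simp [Cplx.ball]
  | succ r ih =>
    rw [Cplx.ball]
    have hsub : X.nbrs (e + 1) (X.ball (e + 1) t0 r) ⊆
        (X.ball (e + 1) t0 r).biUnion (fun a => a.biUnion
          (fun v => (X.face (e + 1)).filter (fun t => a.erase v ⊆ t))) := by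
      intro b hb
      obtain ⟨hb1, a, ha, v, hv, hvb⟩ := (X.mem_nbrs _ _ _).1 hb
      exact mem_biUnion.2 ⟨a, ha, mem_biUnion.2 ⟨v, hv, mem_filter.2 ⟨hb1, hvb⟩⟩⟩
    have hcard : (X.nbrs (e + 1) (X.ball (e + 1) t0 r)).card ≤
        (2 * (e + 2)) * (X.ball (e + 1) t0 r).card := by
      calc _ ≤ ((X.ball (e + 1) t0 r).biUnion (fun a => a.biUnion
          (fun v => (X.face (e + 1)).filter (fun t => a.erase v ⊆ t)))).card :=
            card_le_card hsub
        _ ≤ ∑ a ∈ X.ball (e + 1) t0 r, (a.biUnion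
          (fun v => (X.face (e + 1)).filter (fun t => a.erase v ⊆ t))).card :=
            card_biUnion_le
        _ ≤ ∑ a ∈ X.ball (e + 1) t0 r, 2 * (e + 2) := by
            apply sum_le_sum
            intro a ha
            have haf : a ∈ X.face (e + 1) := X.ball_subset_face h0 r ha
            have hac : a.card = e + 1 + 1 := (mem_filter.1 haf).2
            calc _ ≤ ∑ v ∈ a, ((X.face (e + 1)).filter (fun t => a.erase v ⊆ t)).card :=
                  card_biUnion_le
              _ = ∑ v ∈ a, 2 := by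
                  apply sum_congr rfl
                  intro v hv
                  exact h2 _ (X.erase_mem_face haf hv)
              _ = 2 * (e + 2) := by
                  rw [sum_const, smul_eq_mul, hac]
                  ring
        _ = (2 * (e + 2)) * (X.ball (e + 1) t0 r).card := by
            rw [sum_const, smul_eq_mul, mul_comm]
    calc _ ≤ (X.ball (e + 1) t0 r).card + (X.nbrs (e + 1) (X.ball (e + 1) t0 r)).card :=
          card_union_le _ _
      _ ≤ (X.ball (e + 1) t0 r).card + (2 * (e + 2)) * (X.ball (e + 1) t0 r).card :=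
          Nat.add_le_add_left hcard _
      _ = (2 * e + 5) * (X.ball (e + 1) t0 r).card := by ring
      _ ≤ (2 * e + 5) * (2 * e + 5) ^ r := Nat.mul_le_mul le_rfl ih
      _ = (2 * e + 5) ^ (r + 1) := by ring

theorem Cplx.exists_mem_ball (X : Cplx V) {d : ℕ} (hsc : X.StrongConn d) {t0 : Finset V}
    (h0 : t0 ∈ X.face d) {t : Finset V} (ht : t ∈ X.face d) : ∃ r, t ∈ X.ball d t0 r := by
  have hreach := hsc t0 h0 t ht
  induction hreach with
  | refl => exact ⟨0, by simp [Cplx.ball]⟩
  | @tail b c _ hbc ih =>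
    obtain ⟨hb, hc, hcard⟩ := hbc
    obtain ⟨r, hr⟩ := ih hb
    have hbc' : b.card = (b ∩ c).card + 1 := by
      rw [hcard]
      exact (mem_filter.1 hb).2
    obtain ⟨v, hv, hvs⟩ := exists_erase_eq (inter_subset_left : b ∩ c ⊆ b) hbc'
    refine ⟨r + 1, ?_⟩
    rw [Cplx.ball, mem_union]
    refine Or.inr ((X.mem_nbrs _ _ _).2 ⟨hc, b, hr, v, hv, ?_⟩)
    rw [hvs]
    exact inter_subset_right

/-- If `s` lies in exactly two `(e+1)`-faces, and `a ≠ t` are two of them, then these are all. -/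
theorem Cplx.coface_two (X : Cplx V) {e : ℕ} {s a t : Finset V}
    (h2 : X.updeg (e + 1) s = 2) (ha : a ∈ X.face (e + 1)) (ht : t ∈ X.face (e + 1))
    (hsa : s ⊆ a) (hst : s ⊆ t) (hne : a ≠ t) {u : Finset V} (hu : u ∈ X.face (e + 1)) :
    s ⊆ u ↔ (u = a ∨ u = t) := by
  have hsub : ({a, t} : Finset (Finset V)) ⊆ (X.face (e + 1)).filter (fun u => s ⊆ u) := by
    intro x hx
    rw [mem_insert, mem_singleton] at hx
    rcases hx with rfl | rfl
    · exact mem_filter.2 ⟨ha, hsa⟩
    · exact mem_filter.2 ⟨ht, hst⟩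
  have heq : ({a, t} : Finset (Finset V)) = (X.face (e + 1)).filter (fun u => s ⊆ u) := by
    apply eq_of_subset_of_card_le hsub
    rw [card_pair hne]
    exact le_of_eq h2
  constructor
  · intro hsu
    have : u ∈ ({a, t} : Finset (Finset V)) := by
      rw [heq]
      exact mem_filter.2 ⟨hu, hsu⟩
    rw [mem_insert, mem_singleton] at this
    exact this
  · rintro (rfl | rfl)
    · exact hsa
    · exact hst

theorem Cplx.exists_path_cochain (X : Cplx V) {e : ℕ}
    (h2 : ∀ s ∈ X.face e, X.updeg (e + 1) s = 2) {t0 : Finset V} (h0 : t0 ∈ X.face (e + 1))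
    (r : ℕ) : ∀ t ∈ X.ball (e + 1) t0 r, ∃ f : Finset V → ZMod 2,
      ∀ u ∈ X.face (e + 1), cobdry f u = ind t0 u + ind t u := by
  induction r with
  | zero =>
    intro t ht
    rw [Cplx.ball, mem_singleton] at ht
    refine ⟨0, fun u _ => ?_⟩
    rw [ht, zmod2_add_self]
    simp [cobdry]
  | succ r ih =>
    intro t ht
    rw [Cplx.ball, mem_union] at ht
    rcases ht with ht | ht
    · exact ih t ht
    · obtain ⟨htf, a, ha, v, hv, hvt⟩ := (X.mem_nbrs _ _ _).1 ht
      obtain ⟨f, hf⟩ := ih a ha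
      by_cases hat : a = t
      · exact ⟨f, fun u hu => by rw [← hat]; exact hf u hu⟩
      · have haf : a ∈ X.face (e + 1) := X.ball_subset_face h0 r ha
        have hsf : a.erase v ∈ X.face e := X.erase_mem_face haf hv
        refine ⟨f + ind (a.erase v), fun u hu => ?_⟩
        have huc : u.card = (a.erase v).card + 1 := by
          rw [(mem_filter.1 hu).2, (mem_filter.1 hsf).2]
        rw [cobdry_add, hf u hu, cobdry_ind _ _ huc]
        have hiff := X.coface_two (h2 _ hsf) haf htf (erase_subset v a) hvt hat hu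
        unfold ind
        by_cases hua : u = a
        · have hut : u ≠ t := fun h => hat (hua.symm.trans h)
          rw [if_pos (hiff.2 (Or.inl hua)), if_pos hua, if_neg hut, add_assoc,
            zmod2_add_self]
        · by_cases hut : u = t
          · rw [if_pos (hiff.2 (Or.inr hut)), if_neg hua, if_pos hut, add_zero]
          · have : ¬ (a.erase v ⊆ u) := fun h => by
              rcases hiff.1 h with h' | h'
              · exact hua h'
              · exact hut h'
            rw [if_neg this, if_neg hua, if_neg hut, add_zero]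


theorem Cplx.cobdry_eq_sum (X : Cplx V) {e : ℕ} {u : Finset V} (hu : u ∈ X.face (e + 1))
    (h : Finset V → ZMod 2) :
    cobdry h u = ∑ s ∈ X.face e, if s ⊆ u then h s else 0 := by
  unfold cobdry
  rw [← sum_filter]
  have himg : (X.face e).filter (fun s => s ⊆ u) = u.image (fun v => u.erase v) := by
    ext s
    rw [mem_filter, mem_image]
    constructor
    · rintro ⟨hs, hsu⟩
      have hc : u.card = s.card + 1 := by
        rw [(mem_filter.1 hu).2, (mem_filter.1 hs).2]
      obtain ⟨v, hv, hvs⟩ := exists_erase_eq hsu hc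
      exact ⟨v, hv, hvs⟩
    · rintro ⟨v, hv, rfl⟩
      exact ⟨X.erase_mem_face hu hv, erase_subset v u⟩
  rw [himg, sum_image]
  intro v hv w hw hvw
  have hvw' : u.erase v = u.erase w := hvw
  by_contra hne
  have : w ∈ u.erase v := mem_erase.2 ⟨fun h => hne h.symm, hw⟩
  rw [hvw'] at this
  exact notMem_erase w u this

theorem Cplx.sum_cobdry (X : Cplx V) {e : ℕ} {S : Finset (Finset V)}
    (hS : S ⊆ X.face (e + 1)) (h : Finset V → ZMod 2) :
    ∑ u ∈ S, cobdry h u =
      ∑ s ∈ X.face e, h s * ((S.filter (fun u => s ⊆ u)).card : ZMod 2) := by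
  calc ∑ u ∈ S, cobdry h u = ∑ u ∈ S, ∑ s ∈ X.face e, (if s ⊆ u then h s else 0) :=
        sum_congr rfl (fun u hu => X.cobdry_eq_sum (hS hu) h)
    _ = ∑ s ∈ X.face e, ∑ u ∈ S, (if s ⊆ u then h s else 0) := sum_comm
    _ = ∑ s ∈ X.face e, h s * ((S.filter (fun u => s ⊆ u)).card : ZMod 2) := by
        apply sum_congr rfl
        intro s _
        rw [← sum_filter, sum_const, nsmul_eq_mul, mul_comm]

theorem Cplx.exists_crossing (X : Cplx V) {e : ℕ}
    (h2 : ∀ s ∈ X.face e, X.updeg (e + 1) s = 2) {S : Finset (Finset V)}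
    (hS : S ⊆ X.face (e + 1)) (h : Finset V → ZMod 2) (hsum : ∑ u ∈ S, cobdry h u ≠ 0) :
    ∃ s ∈ X.face e, h s ≠ 0 ∧ (S.filter (fun u => s ⊆ u)).card = 1 := by
  rw [X.sum_cobdry hS h] at hsum
  obtain ⟨s, hs, hne⟩ := exists_ne_zero_of_sum_ne_zero hsum
  refine ⟨s, hs, left_ne_zero_of_mul hne, ?_⟩
  have hle : (S.filter (fun u => s ⊆ u)).card ≤ 2 := by
    rw [← h2 s hs]
    unfold Cplx.updeg
    exact card_le_card (filter_subset_filter _ hS)
  have hc : ((S.filter (fun u => s ⊆ u)).card : ZMod 2) ≠ 0 := right_ne_zero_of_mul hne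
  have h012 : (S.filter (fun u => s ⊆ u)).card = 0 ∨ (S.filter (fun u => s ⊆ u)).card = 1 ∨
      (S.filter (fun u => s ⊆ u)).card = 2 := by omega
  rcases h012 with h0 | h1 | h2'
  · rw [h0] at hc
    exact absurd rfl hc
  · exact h1
  · rw [h2'] at hc
    exact absurd rfl hc

theorem Cplx.crossing_jump (X : Cplx V) {e : ℕ} (h2 : ∀ s ∈ X.face e, X.updeg (e + 1) s = 2)
    {t0 : Finset V} (h0 : t0 ∈ X.face (e + 1)) {s : Finset V} (hs : s ∈ X.face e) {r r' : ℕ}
    (hrr : r < r') (h1 : ((X.ball (e + 1) t0 r).filter (fun u => s ⊆ u)).card = 1) :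
    ((X.ball (e + 1) t0 r').filter (fun u => s ⊆ u)).card ≠ 1 := by
  obtain ⟨x, hx⟩ := card_eq_one.1 h1
  have hxm : x ∈ (X.ball (e + 1) t0 r).filter (fun u => s ⊆ u) := by
    rw [hx]
    exact mem_singleton_self x
  obtain ⟨hxb, hsx⟩ := mem_filter.1 hxm
  have hxf : x ∈ X.face (e + 1) := X.ball_subset_face h0 r hxb
  have hall : ∀ y ∈ (X.face (e + 1)).filter (fun u => s ⊆ u), y ∈ X.ball (e + 1) t0 r' := by
    intro y hy
    obtain ⟨hyf, hsy⟩ := mem_filter.1 hy
    apply X.ball_mono (e + 1) t0 (Nat.succ_le_of_lt hrr)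
    rw [Cplx.ball, mem_union]
    right
    rw [X.mem_nbrs]
    have hc : x.card = s.card + 1 := by
      rw [(mem_filter.1 hxf).2, (mem_filter.1 hs).2]
    obtain ⟨v, hv, hvs⟩ := exists_erase_eq hsx hc
    exact ⟨hyf, x, hxb, v, hv, by rw [hvs]; exact hsy⟩
  have heq : (X.ball (e + 1) t0 r').filter (fun u => s ⊆ u) =
      (X.face (e + 1)).filter (fun u => s ⊆ u) := by
    ext y
    rw [mem_filter, mem_filter]
    constructor
    · rintro ⟨hy, hsy⟩
      exact ⟨X.ball_subset_face h0 r' hy, hsy⟩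
    · rintro ⟨hy, hsy⟩
      exact ⟨hall y (mem_filter.2 ⟨hy, hsy⟩), hsy⟩
  rw [heq]
  have h22 := h2 s hs
  unfold Cplx.updeg at h22
  omega

theorem Cplx.support_card_ge (X : Cplx V) {e : ℕ}
    (h2 : ∀ s ∈ X.face e, X.updeg (e + 1) s = 2) {t0 : Finset V} (h0 : t0 ∈ X.face (e + 1))
    (h : Finset V → ZMod 2) (L : ℕ)
    (hcut : ∀ r < L, ∑ u ∈ X.ball (e + 1) t0 r, cobdry h u ≠ 0) :
    L ≤ ((X.face e).filter (fun s => h s ≠ 0)).card := by
  have hex : ∀ r : ℕ, r < L → ∃ s, s ∈ X.face e ∧ h s ≠ 0 ∧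
      ((X.ball (e + 1) t0 r).filter (fun u => s ⊆ u)).card = 1 := by
    intro r hr
    obtain ⟨s, hs, h1, h3⟩ := X.exists_crossing h2 (X.ball_subset_face h0 r) h (hcut r hr)
    exact ⟨s, hs, h1, h3⟩
  classical
  let φ : ℕ → Finset V := fun r => if hr : r < L then Classical.choose (hex r hr) else ∅
  have hφ : ∀ r (hr : r < L), φ r ∈ X.face e ∧ h (φ r) ≠ 0 ∧
      ((X.ball (e + 1) t0 r).filter (fun u => φ r ⊆ u)).card = 1 := by
    intro r hr
    have : φ r = Classical.choose (hex r hr) := dif_pos hr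
    rw [this]
    exact Classical.choose_spec (hex r hr)
  have hjump : ∀ r r', r < L → r' < L → r < r' → φ r ≠ φ r' := by
    intro r r' hr hr' hlt heq
    have h1 := (hφ r hr).2.2
    have h1' := (hφ r' hr').2.2
    rw [← heq] at h1'
    exact X.crossing_jump h2 h0 (hφ r hr).1 hlt h1 h1'
  calc L = (range L).card := (card_range L).symm
    _ ≤ ((X.face e).filter (fun s => h s ≠ 0)).card := by
        apply card_le_card_of_injOn φ
        · intro r hr
          have hr' : r < L := mem_range.1 hr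
          exact mem_filter.2 ⟨(hφ r hr').1, (hφ r hr').2.1⟩
        · intro r hr r' hr' heq
          have hrL : r < L := mem_range.1 hr
          have hrL' : r' < L := mem_range.1 hr'
          rcases lt_trichotomy r r' with hlt | heq' | hgt
          · exact absurd heq (hjump r r' hrL hrL' hlt)
          · exact heq'
          · exact absurd heq.symm (hjump r' r hrL' hrL hgt)

theorem Cplx.wt_top (X : Cplx V) {d : ℕ} {u : Finset V} (hu : u ∈ X.face d) :
    X.wt d d u = 1 / ((X.face d).card : ℝ) := by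
  unfold Cplx.wt Cplx.updeg
  have : (X.face d).filter (fun t => u ⊆ t) = {u} := by
    ext t
    rw [mem_filter, mem_singleton]
    constructor
    · rintro ⟨ht, hut⟩
      exact (eq_of_subset_of_card_le hut
        (by rw [(mem_filter.1 ht).2, (mem_filter.1 hu).2])).symm
    · rintro rfl
      exact ⟨hu, Subset.refl _⟩
  rw [this, card_singleton, Nat.choose_self]
  simp

theorem Cplx.norm_top_le (X : Cplx V) {d : ℕ} (φ : Finset V → ZMod 2) (a b : Finset V)
    (hφ : ∀ u ∈ X.face d, φ u = ind a u + ind b u) :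
    X.norm d d φ ≤ 2 / ((X.face d).card : ℝ) := by
  unfold Cplx.norm
  have hsub : (X.face d).filter (fun s => φ s ≠ 0) ⊆ {a, b} := by
    intro u hu
    obtain ⟨huf, hne⟩ := mem_filter.1 hu
    rw [hφ u huf] at hne
    rw [mem_insert, mem_singleton]
    by_contra hcon
    rw [not_or] at hcon
    apply hne
    unfold ind
    rw [if_neg hcon.1, if_neg hcon.2, add_zero]
  calc ∑ s ∈ (X.face d).filter (fun s => φ s ≠ 0), X.wt d d s
      = ∑ s ∈ (X.face d).filter (fun s => φ s ≠ 0), 1 / ((X.face d).card : ℝ) :=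
        sum_congr rfl (fun s hs => X.wt_top (mem_filter.1 hs).1)
    _ = (((X.face d).filter (fun s => φ s ≠ 0)).card : ℝ) * (1 / ((X.face d).card : ℝ)) := by
        rw [sum_const, nsmul_eq_mul]
    _ ≤ 2 * (1 / ((X.face d).card : ℝ)) := by
        apply mul_le_mul_of_nonneg_right _ (by positivity)
        have : ((X.face d).filter (fun s => φ s ≠ 0)).card ≤ 2 :=
          (card_le_card hsub).trans card_le_two
        exact_mod_cast this
    _ = 2 / ((X.face d).card : ℝ) := by ring

theorem Cplx.norm_sub_top (X : Cplx V) {e : ℕ} (h2 : ∀ s ∈ X.face e, X.updeg (e + 1) s = 2)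
    (h : Finset V → ZMod 2) :
    X.norm (e + 1) e h = (((X.face e).filter (fun s => h s ≠ 0)).card : ℝ) *
      (2 / (((e : ℝ) + 2) * ((X.face (e + 1)).card : ℝ))) := by
  unfold Cplx.norm
  rw [← nsmul_eq_mul, ← sum_const]
  apply sum_congr rfl
  intro s hs
  unfold Cplx.wt
  rw [h2 s (mem_filter.1 hs).1, Nat.choose_succ_self_right]
  push_cast
  ring

/-- Main bound: a closed strongly connected pseudomanifold of dimension `e + 1` which is an
`ε`-coboundary expander has a bounded number of top-dimensional faces. -/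
theorem Cplx.pseudo_face_bound (X : Cplx V) {e : ℕ} {ε : ℝ} (hε : 0 < ε)
    (h2 : ∀ s ∈ X.face e, X.updeg (e + 1) s = 2) (hsc : X.StrongConn (e + 1))
    (hexp : X.IsCobExp (e + 1) ε) :
    (X.face (e + 1)).card ≤ (2 * e + 5) ^ ⌊((e : ℝ) + 2) / ε⌋₊ := by
  rcases (X.face (e + 1)).eq_empty_or_nonempty with hemp | ⟨t0, h0⟩
  · rw [hemp]
    simp
  suffices hsub : X.face (e + 1) ⊆ X.ball (e + 1) t0 ⌊((e : ℝ) + 2) / ε⌋₊ from
    (card_le_card hsub).trans (X.ball_card_le h2 h0 _)
  intro t ht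
  by_contra hnot
  obtain ⟨r', hr'⟩ := X.exists_mem_ball hsc h0 ht
  obtain ⟨f, hf⟩ := X.exists_path_cochain h2 h0 r' t hr'
  obtain ⟨g, hg⟩ := hexp e (Nat.lt_succ_self e) f
  have hcob : ∀ u ∈ X.face (e + 1), cobdry (f - cobdry g) u = ind t0 u + ind t u := by
    intro u hu
    rw [cobdry_sub, cobdry_cobdry, sub_zero, hf u hu]
  have hcut : ∀ r < ⌊((e : ℝ) + 2) / ε⌋₊ + 1,
      ∑ u ∈ X.ball (e + 1) t0 r, cobdry (f - cobdry g) u ≠ 0 := by
    intro r hr
    have hsubr : X.ball (e + 1) t0 r ⊆ X.face (e + 1) := X.ball_subset_face h0 r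
    have ht0 : t0 ∈ X.ball (e + 1) t0 r :=
      X.ball_mono (e + 1) t0 (Nat.zero_le r) (by simp [Cplx.ball])
    have htn : t ∉ X.ball (e + 1) t0 r :=
      fun h => hnot (X.ball_mono (e + 1) t0 (by omega) h)
    rw [sum_congr rfl (fun u hu => hcob u (hsubr hu)), sum_add_distrib]
    unfold ind
    rw [sum_ite_eq', sum_ite_eq', if_pos ht0, if_neg htn, add_zero]
    exact one_ne_zero
  have hL := X.support_card_ge h2 h0 (f - cobdry g) _ hcut
  have hn1 := X.norm_top_le (cobdry f) t0 t hf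
  have hn2 := X.norm_sub_top h2 (f - cobdry g)
  have hnpos : (0 : ℝ) < ((X.face (e + 1)).card : ℝ) := by
    exact_mod_cast card_pos.2 ⟨t0, h0⟩
  rw [hn2] at hg
  have hle := hg.trans hn1
  have hcardR : ((⌊((e : ℝ) + 2) / ε⌋₊ : ℝ) + 1) ≤
      (((X.face e).filter (fun s => (f - cobdry g) s ≠ 0)).card : ℝ) := by
    exact_mod_cast hL
  have hfl : ((e : ℝ) + 2) / ε < (⌊((e : ℝ) + 2) / ε⌋₊ : ℝ) + 1 := Nat.lt_floor_add_one _
  have he2 : (0 : ℝ) < (e : ℝ) + 2 := by positivity
  have h3 : ε * (((X.face e).filter (fun s => (f - cobdry g) s ≠ 0)).card : ℝ) ≤ (e : ℝ) + 2 := by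
    have hmul := mul_le_mul_of_nonneg_right hle
      (by positivity : (0 : ℝ) ≤ ((e : ℝ) + 2) * ((X.face (e + 1)).card : ℝ) / 2)
    have e1 : ε * ((((X.face e).filter (fun s => (f - cobdry g) s ≠ 0)).card : ℝ) *
        (2 / (((e : ℝ) + 2) * ((X.face (e + 1)).card : ℝ)))) *
        (((e : ℝ) + 2) * ((X.face (e + 1)).card : ℝ) / 2) =
        ε * (((X.face e).filter (fun s => (f - cobdry g) s ≠ 0)).card : ℝ) := by
      field_simp
    have e2 : 2 / ((X.face (e + 1)).card : ℝ) *
        (((e : ℝ) + 2) * ((X.face (e + 1)).card : ℝ) / 2) = (e : ℝ) + 2 := by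
      field_simp
    rw [e1, e2] at hmul
    exact hmul
  have h4 : (e : ℝ) + 2 < ε * (((X.face e).filter (fun s => (f - cobdry g) s ≠ 0)).card : ℝ) := by
    have := (div_lt_iff₀ hε).1 (hfl.trans_le hcardR)
    linarith
  linarith

theorem Cplx.vertex_card_le (X : Cplx V) {d : ℕ} (hp : X.Pure d) :
    (X.face 0).card ≤ (d + 1) * (X.face d).card := by
  have hsub : X.face 0 ⊆ (X.face d).biUnion (fun t => t.image (fun v => ({v} : Finset V))) := by
    intro s hs
    obtain ⟨hsf, hsc⟩ := mem_filter.1 hs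
    obtain ⟨t, ht, hst⟩ := hp s hsf
    obtain ⟨v, rfl⟩ := card_eq_one.1 hsc
    exact mem_biUnion.2 ⟨t, ht, mem_image.2 ⟨v, singleton_subset_iff.1 hst, rfl⟩⟩
  calc (X.face 0).card
      ≤ ((X.face d).biUnion (fun t => t.image (fun v => ({v} : Finset V)))).card :=
        card_le_card hsub
    _ ≤ ∑ t ∈ X.face d, (t.image (fun v => ({v} : Finset V))).card := card_biUnion_le
    _ ≤ ∑ t ∈ X.face d, (d + 1) := by
        apply sum_le_sum
        intro t ht
        exact card_image_le.trans (le_of_eq (mem_filter.1 ht).2)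
    _ = (d + 1) * (X.face d).card := by
        rw [sum_const, smul_eq_mul, mul_comm]

end Vale.Agent.Lib.P067
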