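import Vale.Agent.Lib.P067.Defs

/-!
Skeleta of complexes and the comparison of their weights with those of the ambient complex.
-/

namespace Vale.Agent.Lib.P067

open Finset

variable {V : Type} [DecidableEq V]

/-- The `k`-skeleton: the faces with at most `k + 1` vertices. -/
def Cplx.skel (X : Cplx V) (k : ℕ) : Cplx V where
  faces := X.faces.filter (fun s => s.card ≤ k + 1)
  nonempty_of_mem := fun s hs => X.nonempty_of_mem s (mem_filter.1 hs).1
  down_closed := fun s hs t hts ht =>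
    mem_filter.2 ⟨X.down_closed s (mem_filter.1 hs).1 t hts ht,
      (card_le_card hts).trans (mem_filter.1 hs).2⟩

theorem Cplx.skel_face (X : Cplx V) {k i : ℕ} (hik : i ≤ k) :
    (X.skel k).face i = X.face i := by
  ext s
  simp only [Cplx.face, Cplx.skel, mem_filter]
  constructor
  · rintro ⟨⟨h1, _⟩, h3⟩
    exact ⟨h1, h3⟩
  · rintro ⟨h1, h3⟩
    exact ⟨⟨h1, by omega⟩, h3⟩

theorem Cplx.skel_updeg (X : Cplx V) {k i : ℕ} (hik : i ≤ k) (s : Finset V) :
    (X.skel k).updeg i s = X.updeg i s := by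
  unfold Cplx.updeg
  rw [X.skel_face hik]

theorem Cplx.face_card_eq_updeg (X : Cplx V) (k : ℕ) : (X.face k).card = X.updeg k ∅ := by
  unfold Cplx.updeg
  congr 1
  ext t
  simp

theorem Cplx.updeg_skel_le (X : Cplx V) {d : ℕ} (k : ℕ) (hp : X.Pure d) (s : Finset V) :
    X.updeg k s ≤ 2 ^ (d + 1) * X.updeg d s := by
  unfold Cplx.updeg
  have hsub : (X.face k).filter (fun t => s ⊆ t) ⊆
      ((X.face d).filter (fun t => s ⊆ t)).biUnion (fun t => t.powerset) := by
    intro r hr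
    rw [mem_filter] at hr
    obtain ⟨hr1, hr2⟩ := hr
    have hrf : r ∈ X.faces := (mem_filter.1 hr1).1
    obtain ⟨t, ht, hrt⟩ := hp r hrf
    rw [mem_biUnion]
    exact ⟨t, mem_filter.2 ⟨ht, hr2.trans hrt⟩, mem_powerset.2 hrt⟩
  calc ((X.face k).filter (fun t => s ⊆ t)).card
      ≤ (((X.face d).filter (fun t => s ⊆ t)).biUnion (fun t => t.powerset)).card :=
        card_le_card hsub
    _ ≤ ∑ t ∈ (X.face d).filter (fun t => s ⊆ t), t.powerset.card := card_biUnion_le
    _ = ∑ t ∈ (X.face d).filter (fun t => s ⊆ t), 2 ^ (d + 1) := by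
        apply sum_congr rfl
        intro t ht
        rw [card_powerset, (mem_filter.1 (mem_filter.1 ht).1).2]
    _ = 2 ^ (d + 1) * ((X.face d).filter (fun t => s ⊆ t)).card := by
        rw [sum_const, smul_eq_mul, mul_comm]

theorem Cplx.updeg_le_skel (X : Cplx V) {d k D : ℕ} (hkd : k ≤ d) (hD : X.DegLE d D)
    (s : Finset V) (hs : s.card ≤ k + 1) : X.updeg d s ≤ D * X.updeg k s := by
  unfold Cplx.updeg
  have hsub : (X.face d).filter (fun t => s ⊆ t) ⊆
      ((X.face k).filter (fun t => s ⊆ t)).biUnion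
        (fun r => (X.face d).filter (fun t => r ⊆ t)) := by
    intro t ht
    rw [mem_filter] at ht
    obtain ⟨ht1, ht2⟩ := ht
    have htc : t.card = d + 1 := (mem_filter.1 ht1).2
    obtain ⟨r, hsr, hrt, hrc⟩ := exists_subsuperset_card_eq ht2 hs (by omega : k + 1 ≤ t.card)
    have hrne : r.Nonempty := card_pos.1 (by omega)
    have hrf : r ∈ X.faces := X.down_closed t (mem_filter.1 ht1).1 r hrt hrne
    rw [mem_biUnion]
    exact ⟨r, mem_filter.2 ⟨mem_filter.2 ⟨hrf, hrc⟩, hsr⟩, mem_filter.2 ⟨ht1, hrt⟩⟩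
  calc ((X.face d).filter (fun t => s ⊆ t)).card
      ≤ (((X.face k).filter (fun t => s ⊆ t)).biUnion
        (fun r => (X.face d).filter (fun t => r ⊆ t))).card := card_le_card hsub
    _ ≤ ∑ r ∈ (X.face k).filter (fun t => s ⊆ t),
          ((X.face d).filter (fun t => r ⊆ t)).card := card_biUnion_le
    _ ≤ ∑ r ∈ (X.face k).filter (fun t => s ⊆ t), D := by
        apply sum_le_sum
        intro r hr
        have hrc : r.card = k + 1 := (mem_filter.1 (mem_filter.1 hr).1).2
        obtain ⟨v, hv⟩ : r.Nonempty := card_pos.1 (by omega)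
        refine le_trans (card_le_card ?_) (hD v)
        intro t ht
        rw [mem_filter] at ht ⊢
        exact ⟨ht.1, singleton_subset_iff.2 (ht.2 hv)⟩
    _ = D * ((X.face k).filter (fun t => s ⊆ t)).card := by
        rw [sum_const, smul_eq_mul, mul_comm]


/-- The nat inequalities comparing the data of the `k`-skeleton with those of `X`. -/
theorem Cplx.wt_skel_le (X : Cplx V) {d k D i : ℕ} (hp : X.Pure d) (hD : X.DegLE d D)
    (hkd : k ≤ d) (hik : i ≤ k) (s : Finset V) (hs : s.card = i + 1) :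
    (X.skel k).wt k i s ≤ ((D : ℝ) * 4 ^ (d + 1)) * X.wt d i s := by
  unfold Cplx.wt
  rw [X.skel_updeg le_rfl, X.skel_face le_rfl]
  have h1 : X.updeg k s ≤ 2 ^ (d + 1) * X.updeg d s := X.updeg_skel_le k hp s
  have h3 : (X.face k).card ≤ 2 ^ (d + 1) * (X.face d).card := by
    rw [X.face_card_eq_updeg k, X.face_card_eq_updeg d]
    exact X.updeg_skel_le k hp ∅
  have h4 : (X.face d).card ≤ D * (X.face k).card := by
    rw [X.face_card_eq_updeg k, X.face_card_eq_updeg d]
    exact X.updeg_le_skel hkd hD ∅ (by simp)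
  have hCk : 1 ≤ (k + 1).choose (i + 1) := Nat.choose_pos (by omega)
  have hCd : (d + 1).choose (i + 1) ≤ 2 ^ (d + 1) := Nat.choose_le_two_pow _ _
  have hCd1 : 1 ≤ (d + 1).choose (i + 1) := Nat.choose_pos (by omega)
  rcases Nat.eq_zero_or_pos (X.face d).card with h0 | hpos
  · have h0' : (X.face k).card = 0 := by
      rw [h0] at h3
      omega
    rw [h0, h0']
    simp
  · have hkpos : 0 < (X.face k).card := by
      rcases Nat.eq_zero_or_pos (X.face k).card with h0' | h0'
      · rw [h0'] at h4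
        omega
      · exact h0'
    rw [← mul_div_assoc, div_le_div_iff₀ (by positivity) (by positivity)]
    have key : X.updeg k s * ((d + 1).choose (i + 1) * (X.face d).card) ≤
        (D * 4 ^ (d + 1) * X.updeg d s) * ((k + 1).choose (i + 1) * (X.face k).card) := by
      calc X.updeg k s * ((d + 1).choose (i + 1) * (X.face d).card)
          ≤ (2 ^ (d + 1) * X.updeg d s) * (2 ^ (d + 1) * (D * (X.face k).card)) :=
            Nat.mul_le_mul h1 (Nat.mul_le_mul hCd h4)
        _ = (D * 4 ^ (d + 1) * X.updeg d s) * (1 * (X.face k).card) := by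
            have : (4 : ℕ) ^ (d + 1) = 2 ^ (d + 1) * 2 ^ (d + 1) := by
              rw [← mul_pow]
              norm_num
            rw [this]
            ring
        _ ≤ (D * 4 ^ (d + 1) * X.updeg d s) * ((k + 1).choose (i + 1) * (X.face k).card) :=
            Nat.mul_le_mul le_rfl (Nat.mul_le_mul hCk le_rfl)
    exact_mod_cast key

theorem Cplx.wt_le_skel (X : Cplx V) {d k D i : ℕ} (hp : X.Pure d) (hD : X.DegLE d D)
    (hkd : k ≤ d) (hik : i ≤ k) (s : Finset V) (hs : s.card = i + 1) :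
    X.wt d i s ≤ ((D : ℝ) * 4 ^ (d + 1)) * (X.skel k).wt k i s := by
  unfold Cplx.wt
  rw [X.skel_updeg le_rfl, X.skel_face le_rfl]
  have h2 : X.updeg d s ≤ D * X.updeg k s := X.updeg_le_skel hkd hD s (by omega)
  have h3 : (X.face k).card ≤ 2 ^ (d + 1) * (X.face d).card := by
    rw [X.face_card_eq_updeg k, X.face_card_eq_updeg d]
    exact X.updeg_skel_le k hp ∅
  have h4 : (X.face d).card ≤ D * (X.face k).card := by
    rw [X.face_card_eq_updeg k, X.face_card_eq_updeg d]
    exact X.updeg_le_skel hkd hD ∅ (by simp)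
  have hCk : (k + 1).choose (i + 1) ≤ 2 ^ (d + 1) :=
    (Nat.choose_le_two_pow _ _).trans (Nat.pow_le_pow_right (by norm_num) (by omega))
  have hCk1 : 1 ≤ (k + 1).choose (i + 1) := Nat.choose_pos (by omega)
  have hCd1 : 1 ≤ (d + 1).choose (i + 1) := Nat.choose_pos (by omega)
  rcases Nat.eq_zero_or_pos (X.face d).card with h0 | hpos
  · have h0' : (X.face k).card = 0 := by
      rw [h0] at h3
      omega
    rw [h0, h0']
    simp
  · have hkpos : 0 < (X.face k).card := by
      rcases Nat.eq_zero_or_pos (X.face k).card with h0' | h0'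
      · rw [h0'] at h4
        omega
      · exact h0'
    rw [← mul_div_assoc, div_le_div_iff₀ (by positivity) (by positivity)]
    have key : X.updeg d s * ((k + 1).choose (i + 1) * (X.face k).card) ≤
        (D * 4 ^ (d + 1) * X.updeg k s) * ((d + 1).choose (i + 1) * (X.face d).card) := by
      calc X.updeg d s * ((k + 1).choose (i + 1) * (X.face k).card)
          ≤ (D * X.updeg k s) * (2 ^ (d + 1) * (2 ^ (d + 1) * (X.face d).card)) :=
            Nat.mul_le_mul h2 (Nat.mul_le_mul hCk h3)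
        _ = (D * 4 ^ (d + 1) * X.updeg k s) * (1 * (X.face d).card) := by
            have : (4 : ℕ) ^ (d + 1) = 2 ^ (d + 1) * 2 ^ (d + 1) := by
              rw [← mul_pow]
              norm_num
            rw [this]
            ring
        _ ≤ (D * 4 ^ (d + 1) * X.updeg k s) * ((d + 1).choose (i + 1) * (X.face d).card) :=
            Nat.mul_le_mul le_rfl (Nat.mul_le_mul hCd1 le_rfl)
    exact_mod_cast key

theorem Cplx.norm_skel_le (X : Cplx V) {d k D i : ℕ} (hp : X.Pure d) (hD : X.DegLE d D)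
    (hkd : k ≤ d) (hik : i ≤ k) (f : Finset V → ZMod 2) :
    (X.skel k).norm k i f ≤ ((D : ℝ) * 4 ^ (d + 1)) * X.norm d i f := by
  unfold Cplx.norm
  rw [X.skel_face hik, mul_sum]
  apply sum_le_sum
  intro s hs
  exact X.wt_skel_le hp hD hkd hik s (mem_filter.1 (mem_filter.1 hs).1).2

theorem Cplx.norm_le_skel (X : Cplx V) {d k D i : ℕ} (hp : X.Pure d) (hD : X.DegLE d D)
    (hkd : k ≤ d) (hik : i ≤ k) (f : Finset V → ZMod 2) :
    X.norm d i f ≤ ((D : ℝ) * 4 ^ (d + 1)) * (X.skel k).norm k i f := by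
  unfold Cplx.norm
  rw [X.skel_face hik, mul_sum]
  apply sum_le_sum
  intro s hs
  exact X.wt_le_skel hp hD hkd hik s (mem_filter.1 (mem_filter.1 hs).1).2

theorem Cplx.skel_pure (X : Cplx V) {d k : ℕ} (hp : X.Pure d) (hkd : k ≤ d) :
    (X.skel k).Pure k := by
  intro s hs
  have hs' : s ∈ X.faces ∧ s.card ≤ k + 1 := mem_filter.1 hs
  obtain ⟨t, ht, hst⟩ := hp s hs'.1
  have htc : t.card = d + 1 := (mem_filter.1 ht).2
  obtain ⟨r, hsr, hrt, hrc⟩ := exists_subsuperset_card_eq hst hs'.2 (by omega : k + 1 ≤ t.card)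
  have hrne : r.Nonempty := card_pos.1 (by omega)
  have hrf : r ∈ X.faces := X.down_closed t (mem_filter.1 ht).1 r hrt hrne
  refine ⟨r, ?_, hsr⟩
  rw [X.skel_face le_rfl]
  exact mem_filter.2 ⟨hrf, hrc⟩

theorem Cplx.skel_conn (X : Cplx V) {k : ℕ} (hc : X.Conn) (hk : 1 ≤ k) : (X.skel k).Conn := by
  intro u v hu hv
  have hu' : ({u} : Finset V) ∈ X.faces := (mem_filter.1 hu).1
  have hv' : ({v} : Finset V) ∈ X.faces := (mem_filter.1 hv).1
  refine Relation.ReflTransGen.mono (fun a b hab => ?_) u v (hc u v hu' hv')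
  refine mem_filter.2 ⟨hab, ?_⟩
  calc ({a, b} : Finset V).card ≤ 2 := card_le_two
    _ ≤ k + 1 := by omega

theorem Cplx.skel_degLE (X : Cplx V) {d k D : ℕ} (hp : X.Pure d) (hD : X.DegLE d D) :
    (X.skel k).DegLE k (2 ^ (d + 1) * D) := by
  intro v
  rw [X.skel_updeg le_rfl]
  exact (X.updeg_skel_le k hp {v}).trans (Nat.mul_le_mul le_rfl (hD v))

theorem Cplx.skel_isCobExp (X : Cplx V) {d k D : ℕ} {ε : ℝ} (hp : X.Pure d)
    (hD : X.DegLE d D) (hDpos : 0 < D) (hkd : k ≤ d) (hε : 0 ≤ ε) (hX : X.IsCobExp d ε) :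
    (X.skel k).IsCobExp k (ε / ((D : ℝ) * 4 ^ (d + 1)) ^ 2) := by
  intro i hik f
  obtain ⟨g, hg⟩ := hX i (by omega) f
  refine ⟨g, ?_⟩
  have hKpos : (0 : ℝ) < (D : ℝ) * 4 ^ (d + 1) := by positivity
  have h1 : (X.skel k).norm k i (f - cobdry g) ≤
      ((D : ℝ) * 4 ^ (d + 1)) * X.norm d i (f - cobdry g) :=
    X.norm_skel_le hp hD hkd (by omega) _
  have h2 : X.norm d (i + 1) (cobdry f) ≤
      ((D : ℝ) * 4 ^ (d + 1)) * (X.skel k).norm k (i + 1) (cobdry f) :=
    X.norm_le_skel hp hD hkd (by omega) _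
  rw [div_mul_eq_mul_div, div_le_iff₀ (by positivity)]
  calc ε * (X.skel k).norm k i (f - cobdry g)
      ≤ ε * (((D : ℝ) * 4 ^ (d + 1)) * X.norm d i (f - cobdry g)) :=
        mul_le_mul_of_nonneg_left h1 hε
    _ = ((D : ℝ) * 4 ^ (d + 1)) * (ε * X.norm d i (f - cobdry g)) := by ring
    _ ≤ ((D : ℝ) * 4 ^ (d + 1)) * X.norm d (i + 1) (cobdry f) :=
        mul_le_mul_of_nonneg_left hg hKpos.le
    _ ≤ ((D : ℝ) * 4 ^ (d + 1)) *
          (((D : ℝ) * 4 ^ (d + 1)) * (X.skel k).norm k (i + 1) (cobdry f)) :=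
        mul_le_mul_of_nonneg_left h2 hKpos.le
    _ = (X.skel k).norm k (i + 1) (cobdry f) * ((D : ℝ) * 4 ^ (d + 1)) ^ 2 := by ring

/-- Dimension monotonicity: a family as in Q1 in dimension `d` yields one in every dimension
`1 ≤ k ≤ d` (pass to `k`-skeleta). -/
theorem bddDegCobExpFamily_mono {d k : ℕ} (hk : 1 ≤ k) (hkd : k ≤ d)
    (h : BddDegCobExpFamily d) : BddDegCobExpFamily k := by
  obtain ⟨D, ε, hε, hfam⟩ := h
  refine ⟨2 ^ (d + 1) * (D + 1), ε / (((D + 1 : ℕ) : ℝ) * 4 ^ (d + 1)) ^ 2, by positivity, ?_⟩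
  intro n
  obtain ⟨m, X, hn, hp, hc, hD, hX⟩ := hfam n
  have hD' : X.DegLE d (D + 1) := fun v => (hD v).trans (Nat.le_succ D)
  refine ⟨m, X.skel k, ?_, X.skel_pure hp hkd, X.skel_conn hc hk, X.skel_degLE hp hD', ?_⟩
  · rw [X.skel_face (Nat.zero_le k)]
    exact hn
  · exact X.skel_isCobExp hp hD' (Nat.succ_pos D) hkd hε.le hX

end Vale.Agent.Lib.P067
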