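import Vale.Agent.Lib.P067.Defs

/-!
Strong connectivity of a complex in its top dimension.
-/

namespace Vale.Agent.Lib.P067

open Finset

variable {V : Type} [DecidableEq V]

/-- `X` is strongly connected in dimension `d`: any two `d`-faces are joined by a chain of
`d`-faces in which consecutive members share `d` vertices (a common face of dimension `d - 1`). -/
def Cplx.StrongConn (X : Cplx V) (d : ℕ) : Prop :=
  ∀ s ∈ X.face d, ∀ t ∈ X.face d,
    Relation.ReflTransGen
      (fun a b : Finset V => a ∈ X.face d ∧ b ∈ X.face d ∧ (a ∩ b).card = d) s t

end Vale.Agent.Lib.P067
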